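import Vale.Agent.Lib.P080.OneDimOn

namespace Vale.Agent.Lib.P080

open Filter Topology Set

/-- One-sided jet condition on `J`: `f` is differentiable on `J` with continuous derivative `h`,
and every parabola touching `f` from above at a point of `J` (first-order coefficient `p`,
second-order coefficient `a`) satisfies `T ≤ a p^2`: the viscosity form of `f'^2 f'' ≥ 2 T`. -/
structure Sup1 (J : Set ℝ) (f h : ℝ → ℝ) (T : ℝ) : Prop where
  der : ∀ t ∈ J, HasDerivAt f (h t) t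
  cont : ContinuousOn h J
  jet : ∀ t ∈ J, ∀ p a : ℝ,
    (∀ᶠ s in 𝓝 t, f s ≤ f t + p * (s - t) + a * (s - t) ^ 2) → T ≤ a * p ^ 2

variable {J : Set ℝ} {f h : ℝ → ℝ} {T : ℝ}

lemma Sup1.reflect (H : Sup1 J f h T) : Sup1 (refl J) (fun s => f (-s)) (fun s => - h (-s)) T where
  der := by
    intro t ht
    have h1 : HasDerivAt f (h (-t)) (-t) := H.der (-t) ht
    have h2 : HasDerivAt (fun s : ℝ => -s) (-1) t := (hasDerivAt_id t).neg
    have h3 := HasDerivAt.comp t h1 h2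
    have e : h (-t) * -1 = - h (-t) := by ring
    rw [e] at h3
    exact h3
  cont := (H.cont.comp continuous_neg.continuousOn (fun s hs => hs)).neg
  jet := by
    intro t ht p a hev
    have hten : Tendsto (fun r : ℝ => -r) (𝓝 (-t)) (𝓝 t) := by
      have := (continuous_neg (G := ℝ)).tendsto (-t)
      simpa using this
    have h1 := H.jet (-t) ht (-p) a (by
      have := hten.eventually hev
      filter_upwards [this] with r hr
      simp only [neg_neg] at hr
      have e1 : -p * (r - -t) = p * (-r - t) := by ring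
      have e2 : (r - -t) ^ 2 = (-r - t) ^ 2 := by ring
      rw [e1, e2]
      exact hr)
    have : a * (-p) ^ 2 = a * p ^ 2 := by ring
    linarith

/-- A function with positive derivative at the left end and negative derivative at the right end
of a compact interval has a local maximum in the interior. -/
lemma exists_isLocalMax_of_deriv {φ : ℝ → ℝ} {x y dx dy : ℝ} (hxy : x < y)
    (hc : ContinuousOn φ (Icc x y)) (hx : HasDerivAt φ dx x) (hdx : 0 < dx)
    (hy : HasDerivAt φ dy y) (hdy : dy < 0) :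
    ∃ m ∈ Ioo x y, IsLocalMax φ m := by
  obtain ⟨m, hm, hmax⟩ := isCompact_Icc.exists_isMaxOn (nonempty_Icc.mpr hxy.le) hc
  have hmx : m ≠ x := by
    rintro rfl
    have h1 : Tendsto (slope φ m) (𝓝[≠] m) (𝓝 dx) := hasDerivAt_iff_tendsto_slope.mp hx
    have h2 : ∀ᶠ r in 𝓝[≠] m, 0 < slope φ m r := h1.eventually (eventually_gt_nhds hdx)
    have h3 : ∀ᶠ r in 𝓝[>] m, 0 < slope φ m r :=
      h2.filter_mono (nhdsWithin_mono _ (fun r hr => ne_of_gt hr))
    have h4 : ∀ᶠ r in 𝓝[>] m, r ∈ Ioo m y := Ioo_mem_nhdsGT hxy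
    obtain ⟨r, hr1, hr2⟩ := (h3.and h4).exists
    rw [slope_def_field] at hr1
    have h5 : 0 < r - m := by linarith [hr2.1]
    have h6 : 0 < φ r - φ m := by
      by_contra hneg
      have : (φ r - φ m) / (r - m) ≤ 0 :=
        div_nonpos_of_nonpos_of_nonneg (not_lt.mp hneg) h5.le
      linarith
    have h7 : φ r ≤ φ m := hmax ⟨hr2.1.le, hr2.2.le⟩
    linarith
  have hmy : m ≠ y := by
    rintro rfl
    have h1 : Tendsto (slope φ m) (𝓝[≠] m) (𝓝 dy) := hasDerivAt_iff_tendsto_slope.mp hy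
    have h2 : ∀ᶠ r in 𝓝[≠] m, slope φ m r < 0 := h1.eventually (eventually_lt_nhds hdy)
    have h3 : ∀ᶠ r in 𝓝[<] m, slope φ m r < 0 :=
      h2.filter_mono (nhdsWithin_mono _ (fun r hr => ne_of_lt hr))
    have h4 : ∀ᶠ r in 𝓝[<] m, r ∈ Ioo x m := Ioo_mem_nhdsLT hxy
    obtain ⟨r, hr1, hr2⟩ := (h3.and h4).exists
    rw [slope_def_field] at hr1
    have h5 : r - m < 0 := by linarith [hr2.2]
    have h6 : 0 < φ r - φ m := by
      by_contra hneg
      have : 0 ≤ (φ r - φ m) / (r - m) :=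
        div_nonneg_of_nonpos (not_lt.mp hneg) h5.le
      linarith
    have h7 : φ r ≤ φ m := hmax ⟨hr2.1.le, hr2.2.le⟩
    linarith
  have hmI : m ∈ Ioo x y := ⟨lt_of_le_of_ne hm.1 (Ne.symm hmx), lt_of_le_of_ne hm.2 hmy⟩
  exact ⟨m, hmI, hmax.isLocalMax (Icc_mem_nhds hmI.1 hmI.2)⟩

/-- If `T > 0`, the derivative cannot vanish at two distinct points of an interval inside `J`. -/
lemma Sup1.two_zeros (H : Sup1 J f h T) (hT : 0 < T) {z₁ z₂ : ℝ} (hz : z₁ < z₂)
    (hsub : Icc z₁ z₂ ⊆ J) (h1 : h z₁ = 0) (h2 : h z₂ = 0) : False := by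
  set L := z₂ - z₁ with hL
  have hLpos : 0 < L := by rw [hL]; linarith
  set a := min 1 (T / (L ^ 2 + 1)) with ha
  have hapos : 0 < a := lt_min one_pos (by positivity)
  have ha1 : a ≤ 1 := min_le_left _ _
  have ha2 : a ≤ T / (L ^ 2 + 1) := min_le_right _ _
  have ha3 : a * (L ^ 2 + 1) ≤ T := by
    rwa [le_div_iff₀ (by positivity)] at ha2
  have hkey : a ^ 3 * L ^ 2 < T := by
    have e1 : a ^ 3 ≤ a := by
      have : a ^ 2 ≤ 1 := by nlinarith
      nlinarith
    have : a ^ 3 * L ^ 2 ≤ a * L ^ 2 := mul_le_mul_of_nonneg_right e1 (by positivity)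
    nlinarith
  set φ : ℝ → ℝ := fun r => f r - a * ((r - z₁) * (r - z₂)) with hφ
  have hz1J : z₁ ∈ J := hsub ⟨le_refl _, hz.le⟩
  have hz2J : z₂ ∈ J := hsub ⟨hz.le, le_refl _⟩
  have hq : ∀ r : ℝ, HasDerivAt (fun r : ℝ => a * ((r - z₁) * (r - z₂)))
      (a * (2 * r - z₁ - z₂)) r := by
    intro r
    have e1 : HasDerivAt (fun r : ℝ => r - z₁) 1 r := (hasDerivAt_id r).sub_const z₁
    have e2 : HasDerivAt (fun r : ℝ => r - z₂) 1 r := (hasDerivAt_id r).sub_const z₂
    have e3 := (e1.mul e2).const_mul a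
    refine e3.congr_deriv ?_
    ring
  have hφd : ∀ r ∈ J, HasDerivAt φ (h r - a * (2 * r - z₁ - z₂)) r := fun r hr =>
    (H.der r hr).sub (hq r)
  have hφc : ContinuousOn φ (Icc z₁ z₂) := fun r hr =>
    (hφd r (hsub hr)).continuousAt.continuousWithinAt
  have hd1 : HasDerivAt φ (a * L) z₁ := by
    refine (hφd z₁ hz1J).congr_deriv ?_
    rw [h1, hL]; ring
  have hd2 : HasDerivAt φ (-(a * L)) z₂ := by
    refine (hφd z₂ hz2J).congr_deriv ?_
    rw [h2, hL]; ring
  obtain ⟨m, hm, hmax⟩ := exists_isLocalMax_of_deriv hz hφc hd1 (by positivity) hd2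
    (by linarith [mul_pos hapos hLpos])
  have hjet := H.jet m (hsub ⟨hm.1.le, hm.2.le⟩) (a * (2 * m - z₁ - z₂)) a (by
    filter_upwards [hmax] with r hr
    simp only [hφ] at hr
    nlinarith)
  have hb : (2 * m - z₁ - z₂) ^ 2 ≤ L ^ 2 := by
    have e1 : 2 * m - z₁ - z₂ ≤ L := by rw [hL]; linarith [hm.2]
    have e2 : -L ≤ 2 * m - z₁ - z₂ := by rw [hL]; linarith [hm.1]
    nlinarith
  have e3 : a * (a * (2 * m - z₁ - z₂)) ^ 2 = a ^ 3 * (2 * m - z₁ - z₂) ^ 2 := by ring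
  rw [e3] at hjet
  have : a ^ 3 * (2 * m - z₁ - z₂) ^ 2 ≤ a ^ 3 * L ^ 2 :=
    mul_le_mul_of_nonneg_left hb (by positivity)
  linarith

/-- Derivative of the comparison function `ψ(r) = ℓ(r)^(4/3) / (8 T')`, `ℓ(r) = n + 6 T' (r - x)`:
`ψ' = ℓ^(1/3)` where `ℓ > 0`. -/
lemma psi_hasDerivAt {T' n x r : ℝ} (hT' : T' ≠ 0) (hℓ : 0 < n + 6 * T' * (r - x)) :
    HasDerivAt (fun r : ℝ => (n + 6 * T' * (r - x)) ^ ((4 : ℝ) / 3) / (8 * T'))
      ((n + 6 * T' * (r - x)) ^ ((1 : ℝ) / 3)) r := by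
  have e1 : HasDerivAt (fun r : ℝ => n + 6 * T' * (r - x)) (6 * T') r := by
    have := (((hasDerivAt_id r).sub_const x).const_mul (6 * T')).const_add n
    refine this.congr_deriv (by ring)
  have e2 := e1.rpow_const (p := (4 : ℝ) / 3) (Or.inl hℓ.ne')
  have e3 := e2.div_const (8 * T')
  refine e3.congr_deriv ?_
  have : (4 : ℝ) / 3 - 1 = 1 / 3 := by norm_num
  rw [this]
  field_simp
  ring

/-- The sharp one-sided estimate on an interval where the derivative is positive. -/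
lemma Sup1.pos_step (H : Sup1 J f h T) {x y : ℝ} (hxy : x < y) (hsub : Icc x y ⊆ J)
    (hpos : ∀ r ∈ Icc x y, 0 < h r) : 6 * T * (y - x) ≤ h y ^ 3 - h x ^ 3 := by
  by_contra hcon
  rw [not_le] at hcon
  set D := 6 * T * (y - x) - (h y ^ 3 - h x ^ 3) with hD
  have hDpos : 0 < D := by rw [hD]; linarith
  have hxI : x ∈ Icc x y := ⟨le_refl _, hxy.le⟩
  have hyI : y ∈ Icc x y := ⟨hxy.le, le_refl _⟩
  have hhx : 0 < h x := hpos x hxI
  have hhy : 0 < h y := hpos y hyI
  have hhx3 : 0 < h x ^ 3 := pow_pos hhx 3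
  have hhy3 : 0 < h y ^ 3 := pow_pos hhy 3
  set ε := min (D / 3) (h x ^ 3 / 2) with hε
  have hεpos : 0 < ε := lt_min (by positivity) (by positivity)
  have hε1 : ε ≤ D / 3 := min_le_left _ _
  have hε2 : ε ≤ h x ^ 3 / 2 := min_le_right _ _
  have hyx : 0 < y - x := by linarith
  set η := D / (18 * (y - x)) with hη
  have hηpos : 0 < η := by rw [hη]; positivity
  have hηeq : 18 * η * (y - x) = D := by rw [hη]; field_simp
  obtain ⟨T', hT'lt, hT'ne, hT'ge⟩ : ∃ T', T' < T ∧ T' ≠ 0 ∧ T - η ≤ T' := by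
    by_cases h0 : T - η = 0
    · exact ⟨T - η / 2, by linarith, by intro h1; linarith, by linarith⟩
    · exact ⟨T - η, by linarith, h0, le_refl _⟩
  set n := h x ^ 3 - ε with hn
  have hnpos : 0 < n := by rw [hn]; linarith
  have hnlt : n < h x ^ 3 := by rw [hn]; linarith
  have hℓy : h y ^ 3 < n + 6 * T' * (y - x) := by
    have h1 : (T - η) * (y - x) ≤ T' * (y - x) := mul_le_mul_of_nonneg_right hT'ge hyx.le
    have h2 : (T - η) * (y - x) = T * (y - x) - η * (y - x) := by ring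
    rw [hn]
    linarith
  have hℓpos : ∀ r ∈ Icc x y, 0 < n + 6 * T' * (r - x) := by
    intro r hr
    by_cases hs : 0 ≤ T'
    · have : 0 ≤ T' * (r - x) := mul_nonneg hs (by linarith [hr.1])
      linarith
    · have hs' : T' ≤ 0 := (not_le.mp hs).le
      have h1 : T' * (y - x) ≤ T' * (r - x) :=
        mul_le_mul_of_nonpos_left (by linarith [hr.2]) hs'
      linarith
  set ψ : ℝ → ℝ := fun r => (n + 6 * T' * (r - x)) ^ ((4 : ℝ) / 3) / (8 * T') with hψ
  have hψd : ∀ r, 0 < n + 6 * T' * (r - x) →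
      HasDerivAt ψ ((n + 6 * T' * (r - x)) ^ ((1 : ℝ) / 3)) r :=
    fun r hr => psi_hasDerivAt hT'ne hr
  set φ : ℝ → ℝ := fun r => f r - ψ r with hφ
  have hφd : ∀ r ∈ Icc x y,
      HasDerivAt φ (h r - (n + 6 * T' * (r - x)) ^ ((1 : ℝ) / 3)) r :=
    fun r hr => (H.der r (hsub hr)).sub (hψd r (hℓpos r hr))
  have hφc : ContinuousOn φ (Icc x y) := fun r hr =>
    (hφd r hr).continuousAt.continuousWithinAt
  have hcub : ∀ v : ℝ, 0 < v → (v ^ 3) ^ ((1 : ℝ) / 3) = v := by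
    intro v hv
    rw [← Real.rpow_natCast, ← Real.rpow_mul hv.le]
    norm_num
  have hdx : 0 < h x - (n + 6 * T' * (x - x)) ^ ((1 : ℝ) / 3) := by
    have e : n + 6 * T' * (x - x) = n := by ring
    rw [e]
    have := Real.rpow_lt_rpow hnpos.le hnlt (by norm_num : (0 : ℝ) < 1 / 3)
    rw [hcub _ hhx] at this
    linarith
  have hdy : h y - (n + 6 * T' * (y - x)) ^ ((1 : ℝ) / 3) < 0 := by
    have := Real.rpow_lt_rpow hhy3.le hℓy (by norm_num : (0 : ℝ) < 1 / 3)
    rw [hcub _ hhy] at this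
    linarith
  obtain ⟨m, hm, hmax⟩ := exists_isLocalMax_of_deriv hxy hφc (hφd x hxI) hdx (hφd y hyI) hdy
  have hmI : m ∈ Icc x y := ⟨hm.1.le, hm.2.le⟩
  have hℓm : 0 < n + 6 * T' * (m - x) := hℓpos m hmI
  set p := (n + 6 * T' * (m - x)) ^ ((1 : ℝ) / 3) with hp
  have hppos : 0 < p := Real.rpow_pos_of_pos hℓm _
  set w := (n + 6 * T' * (m - x)) ^ (-(2 : ℝ) / 3) with hw
  have hwp : w * p ^ 2 = 1 := by
    rw [hw, hp, ← Real.rpow_natCast, ← Real.rpow_mul hℓm.le, ← Real.rpow_add hℓm]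
    norm_num
  set δ := (T - T') / (2 * p ^ 2) with hδ
  have hδpos : 0 < δ := by
    have : 0 < T - T' := by linarith
    rw [hδ]; positivity
  set a := T' * w + δ with ha
  have hap : a * p ^ 2 < T := by
    have e : a * p ^ 2 = T' * (w * p ^ 2) + δ * p ^ 2 := by rw [ha]; ring
    have e2 : δ * p ^ 2 = (T - T') / 2 := by rw [hδ]; field_simp
    rw [e, hwp, e2]
    linarith
  set E : ℝ → ℝ := fun r => ψ m + p * (r - m) + a * (r - m) ^ 2 - ψ r with hE
  have hℓev : ∀ᶠ r in 𝓝 m, 0 < n + 6 * T' * (r - x) := by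
    have hcℓ : Continuous (fun r : ℝ => n + 6 * T' * (r - x)) := by fun_prop
    exact hcℓ.continuousAt.eventually (eventually_gt_nhds hℓm)
  have hEd : ∀ r, 0 < n + 6 * T' * (r - x) →
      HasDerivAt E (p + 2 * a * (r - m) - (n + 6 * T' * (r - x)) ^ ((1 : ℝ) / 3)) r := by
    intro r hr
    have d1 : HasDerivAt (fun r : ℝ => r - m) 1 r := (hasDerivAt_id r).sub_const m
    have d2 := (d1.const_mul p).const_add (ψ m)
    have d3 := (d1.pow 2).const_mul a
    have d4 := d2.add d3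
    have e1 : HasDerivAt (fun r : ℝ => ψ m + p * (r - m) + a * (r - m) ^ 2)
        (p + 2 * a * (r - m)) r := by
      refine d4.congr_deriv ?_
      simp
      ring
    exact e1.sub (hψd r hr)
  have hderivE : deriv E =ᶠ[𝓝 m]
      fun r => p + 2 * a * (r - m) - (n + 6 * T' * (r - x)) ^ ((1 : ℝ) / 3) := by
    filter_upwards [hℓev] with r hr
    exact (hEd r hr).deriv
  have hE2 : HasDerivAt
      (fun r => p + 2 * a * (r - m) - (n + 6 * T' * (r - x)) ^ ((1 : ℝ) / 3))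
      (2 * a - 2 * T' * w) m := by
    have d1 : HasDerivAt (fun r : ℝ => p + 2 * a * (r - m)) (2 * a) m := by
      have := (((hasDerivAt_id m).sub_const m).const_mul (2 * a)).const_add p
      refine this.congr_deriv (by ring)
    have d2 : HasDerivAt (fun r : ℝ => n + 6 * T' * (r - x)) (6 * T') m := by
      have := (((hasDerivAt_id m).sub_const x).const_mul (6 * T')).const_add n
      refine this.congr_deriv (by ring)
    have d3 := d2.rpow_const (p := (1 : ℝ) / 3) (Or.inl hℓm.ne')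
    have d4 := d1.sub d3
    refine d4.congr_deriv ?_
    have : (1 : ℝ) / 3 - 1 = -(2 : ℝ) / 3 := by norm_num
    rw [this, ← hw]
    ring
  have hEmin : IsLocalMin E m := by
    apply isLocalMin_of_deriv_deriv_pos
    · rw [hderivE.deriv_eq, hE2.deriv, ha]
      linarith
    · rw [(hEd m hℓm).deriv, ← hp]
      ring
    · exact (hEd m hℓm).continuousAt
  have hjet := H.jet m (hsub hmI) p a (by
    filter_upwards [hmax, hEmin] with r hr1 hr2
    have hr1' : f r - ψ r ≤ f m - ψ m := hr1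
    have hr2' : ψ m + p * (m - m) + a * (m - m) ^ 2 - ψ m
        ≤ ψ m + p * (r - m) + a * (r - m) ^ 2 - ψ r := hr2
    have e : ψ m + p * (m - m) + a * (m - m) ^ 2 - ψ m = 0 := by ring
    rw [e] at hr2'
    linarith)
  linarith

/-- The sharp one-sided estimate on an interval where the derivative does not vanish. -/
lemma Sup1.nonzero_step (H : Sup1 J f h T) {x y : ℝ} (hxy : x < y) (hsub : Icc x y ⊆ J)
    (hne : ∀ r ∈ Icc x y, h r ≠ 0) : 6 * T * (y - x) ≤ h y ^ 3 - h x ^ 3 := by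
  have hxI : x ∈ Icc x y := ⟨le_refl _, hxy.le⟩
  have hc : ContinuousOn h (Icc x y) := H.cont.mono hsub
  rcases lt_or_gt_of_ne (hne x hxI) with hneg | hpos
  · have hall : ∀ r ∈ Icc x y, h r < 0 := by
      intro r hr
      by_contra hcon
      have hr0 : 0 < h r := lt_of_le_of_ne (not_lt.mp hcon) (Ne.symm (hne r hr))
      have hsub2 : Icc x r ⊆ Icc x y := Icc_subset_Icc_right hr.2
      have := intermediate_value_Icc hr.1 (hc.mono hsub2)
      obtain ⟨z, hz, hz0⟩ := this ⟨hneg.le, hr0.le⟩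
      exact hne z (hsub2 hz) hz0
    have H' := H.reflect
    have hxy' : -y < -x := by linarith
    have hsub' : Icc (-y) (-x) ⊆ refl J := by
      intro s hs
      exact hsub ⟨by linarith [hs.2], by linarith [hs.1]⟩
    have h1 := H'.pos_step hxy' hsub' (by
      intro r hr
      have := hall (-r) ⟨by linarith [hr.2], by linarith [hr.1]⟩
      show 0 < - h (-r)
      linarith)
    simp only [neg_neg] at h1
    have e1 : (-h x) ^ 3 - (-h y) ^ 3 = h y ^ 3 - h x ^ 3 := by ring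
    have e2 : 6 * T * (-x - -y) = 6 * T * (y - x) := by ring
    linarith
  · have hall : ∀ r ∈ Icc x y, 0 < h r := by
      intro r hr
      by_contra hcon
      have hr0 : h r < 0 := lt_of_le_of_ne (not_lt.mp hcon) (hne r hr)
      have hsub2 : Icc x r ⊆ Icc x y := Icc_subset_Icc_right hr.2
      have := intermediate_value_Icc' hr.1 (hc.mono hsub2)
      obtain ⟨z, hz, hz0⟩ := this ⟨hr0.le, hpos.le⟩
      exact hne z (hsub2 hz) hz0
    exact H.pos_step hxy hsub hall

/-- A function continuous on `[x, y]` and nondecreasing on the open interval satisfies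
`G x ≤ G y`. -/
lemma le_of_interior_mono {G : ℝ → ℝ} {x y : ℝ} (hxy : x < y) (hc : ContinuousOn G (Icc x y))
    (hmono : ∀ x' y', x < x' → x' < y' → y' < y → G x' ≤ G y') : G x ≤ G y := by
  set m := (x + y) / 2 with hm
  have hxm : x < m := by rw [hm]; linarith
  have hmy : m < y := by rw [hm]; linarith
  have h1 : G x ≤ G m := by
    have hx : x ∈ closure (Ioo x m) := by
      rw [closure_Ioo (ne_of_lt hxm)]
      exact ⟨le_refl _, hxm.le⟩
    have hcw : ContinuousWithinAt G (Ioo x m) x :=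
      (hc x ⟨le_refl _, hxy.le⟩).mono (fun r hr => ⟨hr.1.le, by linarith [hr.2]⟩)
    exact hcw.closure_le hx continuousWithinAt_const (fun r hr => hmono r m hr.1 hr.2 hmy)
  have h2 : G m ≤ G y := by
    have hy : y ∈ closure (Ioo m y) := by
      rw [closure_Ioo (ne_of_lt hmy)]
      exact ⟨hmy.le, le_refl _⟩
    have hcw : ContinuousWithinAt G (Ioo m y) y :=
      (hc y ⟨hxy.le, le_refl _⟩).mono (fun r hr => ⟨by linarith [hr.1], hr.2.le⟩)
    exact ContinuousWithinAt.closure_le hy continuousWithinAt_const hcw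
      (fun r hr => hmono m r hxm hr.1 hr.2)
  exact h1.trans h2

/-- The sharp one-sided estimate: `t ↦ h(t)^3 - 6 T t` is nondecreasing on the interval `J`. -/
theorem Sup1.mono (H : Sup1 J f h T) (hJc : J.OrdConnected) {s t : ℝ} (hs : s ∈ J) (ht : t ∈ J)
    (hst : s ≤ t) : 6 * T * (t - s) ≤ h t ^ 3 - h s ^ 3 := by
  rcases eq_or_lt_of_le hst with rfl | hlt
  · simp
  set G : ℝ → ℝ := fun r => h r ^ 3 - 6 * T * r with hG
  have hGc : ContinuousOn G J := (H.cont.pow 3).sub (by fun_prop)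
  have hopen : ∀ x y, x < y → Icc x y ⊆ J → (∀ r ∈ Ioo x y, h r ≠ 0) → G x ≤ G y := by
    intro x y hxy hsub hne
    apply le_of_interior_mono hxy (hGc.mono hsub)
    intro x' y' hx' hxy' hy'
    have := H.nonzero_step hxy' (fun r hr => hsub ⟨by linarith [hr.1], by linarith [hr.2]⟩)
      (fun r hr => hne r ⟨by linarith [hr.1], by linarith [hr.2]⟩)
    simp only [hG]
    linarith
  have hsub : Icc s t ⊆ J := hJc.out hs ht
  suffices hgoal : G s ≤ G t by
    simp only [hG] at hgoal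
    linarith
  set Z : Set ℝ := Icc s t ∩ h ⁻¹' {0} with hZ
  have hZcl : IsClosed Z :=
    (H.cont.mono hsub).preimage_isClosed_of_isClosed isClosed_Icc isClosed_singleton
  have hZc : IsCompact Z := isCompact_Icc.of_isClosed_subset hZcl inter_subset_left
  by_cases hZne : Z.Nonempty
  · have h1 := hZc.isLeast_sInf hZne
    have h2 := hZc.isGreatest_sSup hZne
    set z₁ := sInf Z
    set z₂ := sSup Z
    have hz1 : z₁ ∈ Z := h1.1
    have hz2 : z₂ ∈ Z := h2.1
    have hz12 : z₁ ≤ z₂ := h1.2 hz2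
    have e1 : h z₁ = 0 := hz1.2
    have e2 : h z₂ = 0 := hz2.2
    have hA : G s ≤ G z₁ := by
      rcases eq_or_lt_of_le hz1.1.1 with he | hl
      · rw [← he]
      · apply hopen s z₁ hl (fun r hr => hsub ⟨hr.1, le_trans hr.2 hz1.1.2⟩)
        intro r hr h0
        have hrZ : r ∈ Z := ⟨⟨hr.1.le, le_trans hr.2.le hz1.1.2⟩, h0⟩
        have := h1.2 hrZ
        linarith [hr.2]
    have hB : G z₂ ≤ G t := by
      rcases eq_or_lt_of_le hz2.1.2 with he | hl
      · rw [he]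
      · apply hopen z₂ t hl (fun r hr => hsub ⟨le_trans hz2.1.1 hr.1, hr.2⟩)
        intro r hr h0
        have hrZ : r ∈ Z := ⟨⟨le_trans hz2.1.1 hr.1.le, hr.2.le⟩, h0⟩
        have := h2.2 hrZ
        linarith [hr.1]
    have hC : G z₁ ≤ G z₂ := by
      rcases eq_or_lt_of_le hz12 with he | hl
      · rw [he]
      · by_cases hT : 0 < T
        · exact (H.two_zeros hT hl
            (fun r hr => hsub ⟨le_trans hz1.1.1 hr.1, le_trans hr.2 hz2.1.2⟩) e1 e2).elim
        · simp only [hG, e1, e2]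
          have hT' : T ≤ 0 := not_lt.mp hT
          nlinarith
    linarith
  · apply hopen s t hlt hsub
    intro r hr h0
    exact hZne ⟨r, ⟨hr.1.le, hr.2.le⟩, h0⟩

/-- The condition for parabolas touching from below, as a `Sup1` condition for `-f`. -/
lemma Sup1.of_sub {S : ℝ} (hder : ∀ t ∈ J, HasDerivAt f (h t) t) (hcont : ContinuousOn h J)
    (hjet : ∀ t ∈ J, ∀ p a : ℝ,
      (∀ᶠ s in 𝓝 t, f t + p * (s - t) + a * (s - t) ^ 2 ≤ f s) → a * p ^ 2 ≤ S) :
    Sup1 J (fun s => - f s) (fun s => - h s) (-S) where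
  der := fun t ht => (hder t ht).neg
  cont := hcont.neg
  jet := by
    intro t ht p a hev
    have h1 := hjet t ht (-p) (-a) (by
      filter_upwards [hev] with s hs
      linarith)
    have e : (-a) * (-p) ^ 2 = -(a * p ^ 2) := by ring
    linarith

/-- Elementary: `|a - b|^3 ≤ 4 |a^3 - b^3|`. -/
lemma abs_sub_cube_le (a b : ℝ) : |a - b| ^ 3 ≤ 4 * |a ^ 3 - b ^ 3| := by
  have e : a ^ 3 - b ^ 3 = (a - b) * (a ^ 2 + a * b + b ^ 2) := by ring
  have hq : 0 ≤ a ^ 2 + a * b + b ^ 2 := by nlinarith [sq_nonneg (a + b), sq_nonneg (a - b)]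
  rw [e, abs_mul, abs_of_nonneg hq]
  have h2 : |a - b| ^ 2 = (a - b) ^ 2 := sq_abs _
  have h3 : (a - b) ^ 2 ≤ 4 * (a ^ 2 + a * b + b ^ 2) := by nlinarith [sq_nonneg (a + b)]
  have h4 : |a - b| ^ 3 = |a - b| * |a - b| ^ 2 := by ring
  rw [h4, h2]
  have := mul_le_mul_of_nonneg_left h3 (abs_nonneg (a - b))
  linarith

/-- If `f'^3` is the affine function `c r + b` on `[s, t]`, the slope `c` is controlled by the
oscillation of `f` on `[s, t]`. -/
lemma slope_le_osc {f : ℝ → ℝ} {c b s t : ℝ} (hst : s < t)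
    (hd : ∀ r ∈ Icc s t, DifferentiableAt ℝ f r)
    (hcube : ∀ r ∈ Icc s t, deriv f r ^ 3 = c * r + b) :
    ∃ x ∈ Icc s t, ∃ y ∈ Icc s t, |c| * (t - s) ^ 4 ≤ 256 * |f x - f y| ^ 3 := by
  set L := t - s with hL
  have hLpos : 0 < L := by rw [hL]; linarith
  set mid := (s + t) / 2 with hmid
  have key : ∀ ξ, 0 ≤ c * (c * mid + b) * (ξ - mid) → L ^ 2 / 16 ≤ (ξ - mid) ^ 2 →
      |c| * L ≤ 4 * |c * ξ + b| := by
    intro ξ h1 h2
    have e1 : (c * L) ^ 2 ≤ (4 * (c * ξ + b)) ^ 2 := by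
      have e2 : c * ξ + b = (c * mid + b) + c * (ξ - mid) := by ring
      rw [e2]
      have e3 : c ^ 2 * (L ^ 2 / 16) ≤ c ^ 2 * (ξ - mid) ^ 2 :=
        mul_le_mul_of_nonneg_left h2 (sq_nonneg c)
      nlinarith [sq_nonneg (c * mid + b)]
    have e4 := sq_le_sq.mp e1
    rw [abs_mul, abs_mul, abs_of_pos hLpos, abs_of_pos (by norm_num : (0 : ℝ) < 4)] at e4
    exact e4
  have mvt : ∀ x y, s ≤ x → x < y → y ≤ t → y - x = L / 4 →
      ∃ ξ ∈ Ioo x y, |f x - f y| ^ 3 = |c * ξ + b| * (L / 4) ^ 3 := by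
    intro x y hx hxy hy hyx
    have hsub : Icc x y ⊆ Icc s t := Icc_subset_Icc hx hy
    have hfc : ContinuousOn f (Icc x y) := fun r hr =>
      (hd r (hsub hr)).continuousAt.continuousWithinAt
    have hfd : DifferentiableOn ℝ f (Ioo x y) := fun r hr =>
      (hd r (hsub ⟨hr.1.le, hr.2.le⟩)).differentiableWithinAt
    obtain ⟨ξ, hξ, hξe⟩ := exists_deriv_eq_slope f hxy hfc hfd
    refine ⟨ξ, hξ, ?_⟩
    have hξI : ξ ∈ Icc s t := hsub ⟨hξ.1.le, hξ.2.le⟩
    have e1 : f y - f x = deriv f ξ * (L / 4) := by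
      rw [hξe, hyx]
      field_simp
    rw [abs_sub_comm, e1, abs_mul, mul_pow, ← abs_pow, hcube ξ hξI,
      abs_of_pos (by positivity : 0 < L / 4)]
  have fin : ∀ x y ξ, |f x - f y| ^ 3 = |c * ξ + b| * (L / 4) ^ 3 → |c| * L ≤ 4 * |c * ξ + b| →
      |c| * L ^ 4 ≤ 256 * |f x - f y| ^ 3 := by
    intro x y ξ h1 h2
    rw [h1]
    have h3 : |c| * L * L ^ 3 ≤ 4 * |c * ξ + b| * L ^ 3 :=
      mul_le_mul_of_nonneg_right h2 (by positivity)
    have e : 256 * (|c * ξ + b| * (L / 4) ^ 3) = 4 * |c * ξ + b| * L ^ 3 := by ring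
    rw [e]
    linarith
  by_cases hsign : 0 ≤ c * (c * mid + b)
  · obtain ⟨ξ, hξ, hξe⟩ := mvt (t - L / 4) t (by rw [hL]; linarith) (by linarith) (le_refl _)
      (by ring)
    refine ⟨t - L / 4, ⟨by rw [hL]; linarith, by linarith⟩, t, ⟨hst.le, le_refl _⟩, ?_⟩
    apply fin _ _ ξ hξe
    have h1 : L / 4 ≤ ξ - mid := by
      have := hξ.1
      rw [hmid]; rw [hL] at this ⊢; linarith
    apply key ξ (mul_nonneg hsign (by linarith))
    nlinarith
  · obtain ⟨ξ, hξ, hξe⟩ := mvt s (s + L / 4) (le_refl _) (by linarith) (by rw [hL]; linarith)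
      (by ring)
    refine ⟨s, ⟨le_refl _, hst.le⟩, s + L / 4, ⟨by linarith, by rw [hL]; linarith⟩, ?_⟩
    apply fin _ _ ξ hξe
    have h1 : L / 4 ≤ mid - ξ := by
      have := hξ.2
      rw [hmid]; rw [hL] at this ⊢; linarith
    have hsign' : c * (c * mid + b) ≤ 0 := (not_le.mp hsign).le
    apply key ξ (mul_nonneg_of_nonpos_of_nonpos hsign' (by linarith))
    nlinarith

end Vale.Agent.Lib.P080
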