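import Vale.Agent.Lib.P080.ReduceOn
import Vale.Agent.Lib.P080.Sharp

namespace Vale.Agent.Lib.P080

open Filter Topology Set

variable {d : ℕ}

/-- Viscosity inequality for parabolas touching every `f_j` from above, at arbitrary points. -/
lemma sum_superjets_nonneg (J : Fin d → Set ℝ) (hJo : ∀ i, IsOpen (J i)) (f : Fin d → ℝ → ℝ)
    (Ω : Set (EuclideanSpace ℝ (Fin d)))
    (hΩ : {x : EuclideanSpace ℝ (Fin d) | ∀ i, x i ∈ J i} ⊆ Ω)
    (u : EuclideanSpace ℝ (Fin d) → ℝ) (hu : InfHarmonicOn Ω u)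
    (huf : ∀ x : EuclideanSpace ℝ (Fin d), (∀ i, x i ∈ J i) → u x = ∑ i, f i (x i))
    (t p a : Fin d → ℝ) (ht : ∀ i, t i ∈ J i)
    (hj : ∀ j, ∀ᶠ s in 𝓝 (t j), f j s ≤ f j (t j) + p j * (s - t j) + a j * (s - t j) ^ 2) :
    0 ≤ ∑ j, a j * p j ^ 2 := by
  set z : EuclideanSpace ℝ (Fin d) := WithLp.toLp 2 t with hz
  have hzj : ∀ j, z j = t j := fun j => by simp [hz]
  have hzJ : ∀ j, z j ∈ J j := fun j => by rw [hzj]; exact ht j
  have hjets : ∀ j, ∀ᶠ s in 𝓝 (z j),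
      f j s ≤ f j (z j) + p j * (s - z j) + a j * (s - z j) ^ 2 := by
    intro j
    rw [hzj]
    exact hj j
  have hmax := isLocalMax_of_jets_on J hJo f u huf z hzJ p a hjets
  have h0 := (hu.2 (testFn z p a) (testFn_contDiff z p a) z (hΩ hzJ)).1 hmax
  rw [infLap_testFn] at h0
  have e : ∑ j, 2 * a j * p j ^ 2 = 2 * ∑ j, a j * p j ^ 2 := by
    rw [Finset.mul_sum]
    apply Finset.sum_congr rfl
    intro j _
    ring
  rw [e] at h0
  linarith

/-- Viscosity inequality for parabolas touching every `f_j` from below, at arbitrary points. -/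
lemma sum_subjets_nonpos (J : Fin d → Set ℝ) (hJo : ∀ i, IsOpen (J i)) (f : Fin d → ℝ → ℝ)
    (Ω : Set (EuclideanSpace ℝ (Fin d)))
    (hΩ : {x : EuclideanSpace ℝ (Fin d) | ∀ i, x i ∈ J i} ⊆ Ω)
    (u : EuclideanSpace ℝ (Fin d) → ℝ) (hu : InfHarmonicOn Ω u)
    (huf : ∀ x : EuclideanSpace ℝ (Fin d), (∀ i, x i ∈ J i) → u x = ∑ i, f i (x i))
    (t p a : Fin d → ℝ) (ht : ∀ i, t i ∈ J i)
    (hj : ∀ j, ∀ᶠ s in 𝓝 (t j), f j (t j) + p j * (s - t j) + a j * (s - t j) ^ 2 ≤ f j s) :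
    ∑ j, a j * p j ^ 2 ≤ 0 := by
  set z : EuclideanSpace ℝ (Fin d) := WithLp.toLp 2 t with hz
  have hzj : ∀ j, z j = t j := fun j => by simp [hz]
  have hzJ : ∀ j, z j ∈ J j := fun j => by rw [hzj]; exact ht j
  have hjets : ∀ j, ∀ᶠ s in 𝓝 (z j),
      f j (z j) + p j * (s - z j) + a j * (s - z j) ^ 2 ≤ f j s := by
    intro j
    rw [hzj]
    exact hj j
  have hmin := isLocalMin_of_jets_on J hJo f u huf z hzJ p a hjets
  have h0 := (hu.2 (testFn z p a) (testFn_contDiff z p a) z (hΩ hzJ)).2 hmin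
  rw [infLap_testFn] at h0
  have e : ∑ j, 2 * a j * p j ^ 2 = 2 * ∑ j, a j * p j ^ 2 := by
    rw [Finset.mul_sum]
    apply Finset.sum_congr rfl
    intro j _
    ring
  rw [e] at h0
  linarith

/-- Classification of separable infinity-harmonic functions on a box: the cube of every `f_i'`
is an affine function, and the slopes of these affine functions add up to zero. -/
theorem cube_affine (J : Fin d → Set ℝ) (hJo : ∀ i, IsOpen (J i))
    (hJc : ∀ i, (J i).OrdConnected) (hJne : ∀ i, (J i).Nonempty)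
    (f : Fin d → ℝ → ℝ) (hf : ∀ i, ContinuousOn (f i) (J i))
    (Ω : Set (EuclideanSpace ℝ (Fin d)))
    (hΩ : {x : EuclideanSpace ℝ (Fin d) | ∀ i, x i ∈ J i} ⊆ Ω)
    (u : EuclideanSpace ℝ (Fin d) → ℝ) (hu : InfHarmonicOn Ω u)
    (huf : ∀ x : EuclideanSpace ℝ (Fin d), (∀ i, x i ∈ J i) → u x = ∑ i, f i (x i)) :
    ∃ c b : Fin d → ℝ, ∑ i, c i = 0 ∧ ∀ i, ∀ t ∈ J i,
      DifferentiableAt ℝ (f i) t ∧ deriv (f i) t ^ 3 = c i * t + b i := by
  classical
  obtain ⟨K, hK0, hK⟩ := hyp_of_infHarmonicOn J hJo hJne f hf Ω hΩ u hu huf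
  have hreg := fun i => (hK i).regular (hJo i) (hJc i) hK0
  set A : Fin d → Set ℝ := fun i => {v | ∃ t ∈ J i, ∃ p a : ℝ,
    (∀ᶠ s in 𝓝 t, f i s ≤ f i t + p * (s - t) + a * (s - t) ^ 2) ∧ v = a * p ^ 2} with hA
  set B : Fin d → Set ℝ := fun i => {v | ∃ t ∈ J i, ∃ p a : ℝ,
    (∀ᶠ s in 𝓝 t, f i t + p * (s - t) + a * (s - t) ^ 2 ≤ f i s) ∧ v = a * p ^ 2} with hB
  have hAne : ∀ i, (A i).Nonempty := by
    intro i
    obtain ⟨t, ht, p, a, h⟩ := exists_superjet_on (J i) (hJo i) (hJne i) (f i) (hf i)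
    exact ⟨a * p ^ 2, t, ht, p, a, h, rfl⟩
  have hBne : ∀ i, (B i).Nonempty := by
    intro i
    obtain ⟨t, ht, p, a, h⟩ := exists_subjet_on (J i) (hJo i) (hJne i) (f i) (hf i)
    exact ⟨a * p ^ 2, t, ht, p, a, h, rfl⟩
  have hAbdd : ∀ i, BddBelow (A i) := by
    intro i
    refine ⟨-K, ?_⟩
    rintro v ⟨t, ht, p, a, hj, rfl⟩
    exact (hK i).sup t ht p a hj
  have hBbdd : ∀ i, BddAbove (B i) := by
    intro i
    refine ⟨K, ?_⟩
    rintro v ⟨t, ht, p, a, hj, rfl⟩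
    exact (hK i).sub t ht p a hj
  set T : Fin d → ℝ := fun i => sInf (A i) with hT
  set S : Fin d → ℝ := fun i => sSup (B i) with hS
  have hTle : ∀ i, ∀ t ∈ J i, ∀ p a : ℝ,
      (∀ᶠ s in 𝓝 t, f i s ≤ f i t + p * (s - t) + a * (s - t) ^ 2) → T i ≤ a * p ^ 2 :=
    fun i t ht p a hj => csInf_le (hAbdd i) ⟨t, ht, p, a, hj, rfl⟩
  have hSle : ∀ i, ∀ t ∈ J i, ∀ p a : ℝ,
      (∀ᶠ s in 𝓝 t, f i t + p * (s - t) + a * (s - t) ^ 2 ≤ f i s) → a * p ^ 2 ≤ S i :=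
    fun i t ht p a hj => le_csSup (hBbdd i) ⟨t, ht, p, a, hj, rfl⟩
  have hd1 : (0 : ℝ) < (d : ℝ) + 1 := by positivity
  have hsumT : 0 ≤ ∑ i, T i := by
    by_contra hneg
    rw [not_le] at hneg
    set ε := -(∑ i, T i) / ((d : ℝ) + 1) with hε
    have hεpos : 0 < ε := by
      rw [hε]
      exact div_pos (by linarith) hd1
    have hεeq : ((d : ℝ) + 1) * ε = -(∑ i, T i) := by
      rw [hε]
      field_simp
    have hex : ∀ i, ∃ v ∈ A i, v < T i + ε := fun i =>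
      exists_lt_of_csInf_lt (hAne i) (by simp only [hT]; linarith)
    choose v hvA hvlt using hex
    have hvA' : ∀ i, ∃ t ∈ J i, ∃ p a : ℝ,
        (∀ᶠ s in 𝓝 t, f i s ≤ f i t + p * (s - t) + a * (s - t) ^ 2) ∧ v i = a * p ^ 2 := hvA
    choose t ht p a hj hva using hvA'
    have h0 := sum_superjets_nonneg J hJo f Ω hΩ u hu huf t p a ht hj
    have h1 : ∑ j, a j * p j ^ 2 ≤ ∑ j, (T j + ε) := by
      apply Finset.sum_le_sum
      intro j _
      rw [← hva j]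
      exact (hvlt j).le
    rw [Finset.sum_add_distrib, Finset.sum_const, Finset.card_univ, Fintype.card_fin,
      nsmul_eq_mul] at h1
    linarith
  have hsumS : ∑ i, S i ≤ 0 := by
    by_contra hneg
    rw [not_le] at hneg
    set ε := (∑ i, S i) / ((d : ℝ) + 1) with hε
    have hεpos : 0 < ε := by
      rw [hε]
      exact div_pos hneg hd1
    have hεeq : ((d : ℝ) + 1) * ε = ∑ i, S i := by
      rw [hε]
      field_simp
    have hex : ∀ i, ∃ v ∈ B i, S i - ε < v := fun i =>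
      exists_lt_of_lt_csSup (hBne i) (by simp only [hS]; linarith)
    choose v hvB hvlt using hex
    have hvB' : ∀ i, ∃ t ∈ J i, ∃ p a : ℝ,
        (∀ᶠ s in 𝓝 t, f i t + p * (s - t) + a * (s - t) ^ 2 ≤ f i s) ∧ v i = a * p ^ 2 := hvB
    choose t ht p a hj hva using hvB'
    have h0 := sum_subjets_nonpos J hJo f Ω hΩ u hu huf t p a ht hj
    have h1 : ∑ j, (S j - ε) ≤ ∑ j, a j * p j ^ 2 := by
      apply Finset.sum_le_sum
      intro j _
      rw [← hva j]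
      exact (hvlt j).le
    rw [Finset.sum_sub_distrib, Finset.sum_const, Finset.card_univ, Fintype.card_fin,
      nsmul_eq_mul] at h1
    linarith
  have H1 : ∀ i, Sup1 (J i) (f i) (deriv (f i)) (T i) := fun i =>
    ⟨fun t ht => ((hreg i).2.1 t ht).hasDerivAt,
      (hreg i).1.continuousOn_deriv_of_isOpen (hJo i) le_rfl, hTle i⟩
  have H2 : ∀ i, Sup1 (J i) (fun s => - f i s) (fun s => - deriv (f i) s) (-S i) := fun i =>
    Sup1.of_sub (fun t ht => ((hreg i).2.1 t ht).hasDerivAt)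
      ((hreg i).1.continuousOn_deriv_of_isOpen (hJo i) le_rfl) (hSle i)
  have hm1 : ∀ i, ∀ s ∈ J i, ∀ t ∈ J i, s ≤ t →
      6 * T i * (t - s) ≤ deriv (f i) t ^ 3 - deriv (f i) s ^ 3 :=
    fun i s hs t ht hst => (H1 i).mono (hJc i) hs ht hst
  have hm2 : ∀ i, ∀ s ∈ J i, ∀ t ∈ J i, s ≤ t →
      deriv (f i) t ^ 3 - deriv (f i) s ^ 3 ≤ 6 * S i * (t - s) := by
    intro i s hs t ht hst
    have h1 : 6 * (-S i) * (t - s) ≤ (- deriv (f i) t) ^ 3 - (- deriv (f i) s) ^ 3 :=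
      (H2 i).mono (hJc i) hs ht hst
    have e : (-deriv (f i) t) ^ 3 - (-deriv (f i) s) ^ 3
        = -(deriv (f i) t ^ 3 - deriv (f i) s ^ 3) := by ring
    rw [e] at h1
    linarith
  have hTS : ∀ i, T i ≤ S i := by
    intro i
    obtain ⟨t0, ht0⟩ := hJne i
    obtain ⟨ρ, hρ, hball⟩ := Metric.isOpen_iff.mp (hJo i) t0 ht0
    have ht1 : t0 + ρ / 2 ∈ J i := by
      apply hball
      rw [Metric.mem_ball, Real.dist_eq]
      have e : t0 + ρ / 2 - t0 = ρ / 2 := by ring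
      rw [e, abs_of_pos (by positivity)]
      linarith
    have a1 := hm1 i t0 ht0 _ ht1 (by linarith)
    have a2 := hm2 i t0 ht0 _ ht1 (by linarith)
    have e : t0 + ρ / 2 - t0 = ρ / 2 := by ring
    rw [e] at a1 a2
    have h3 : 6 * T i * (ρ / 2) ≤ 6 * S i * (ρ / 2) := a1.trans a2
    have h4 : 0 < 6 * (ρ / 2) := by positivity
    nlinarith
  have hEq : ∀ i, T i = S i := by
    have hnn : ∀ i ∈ (Finset.univ : Finset (Fin d)), 0 ≤ S i - T i := fun i _ => by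
      linarith [hTS i]
    have hsum : ∑ i, (S i - T i) = 0 := by
      have h1 : 0 ≤ ∑ i, (S i - T i) := Finset.sum_nonneg hnn
      have h2 : ∑ i, (S i - T i) = ∑ i, S i - ∑ i, T i := by rw [Finset.sum_sub_distrib]
      linarith
    have h3 := (Finset.sum_eq_zero_iff_of_nonneg hnn).mp hsum
    intro i
    have := h3 i (Finset.mem_univ i)
    linarith
  have hsum0 : ∑ i, T i = 0 := by
    have : ∑ i, T i = ∑ i, S i := Finset.sum_congr rfl (fun i _ => hEq i)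
    linarith
  choose t0 ht0 using hJne
  refine ⟨fun i => 6 * T i, fun i => deriv (f i) (t0 i) ^ 3 - 6 * T i * t0 i, ?_, ?_⟩
  · rw [← Finset.mul_sum, hsum0, mul_zero]
  · intro i t ht
    refine ⟨(hreg i).2.1 t ht, ?_⟩
    show deriv (f i) t ^ 3 = 6 * T i * t + (deriv (f i) (t0 i) ^ 3 - 6 * T i * t0 i)
    rcases le_total (t0 i) t with hle | hle
    · have a1 := hm1 i _ (ht0 i) t ht hle
      have a2 := hm2 i _ (ht0 i) t ht hle
      rw [← hEq i] at a2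
      linarith
    · have a1 := hm1 i t ht _ (ht0 i) hle
      have a2 := hm2 i t ht _ (ht0 i) hle
      rw [← hEq i] at a2
      linarith

/-- The derivative of a function that is separable on an open box, at a point of the box. -/
lemma hasFDerivAt_sep (J : Fin d → Set ℝ) (hJo : ∀ i, IsOpen (J i)) (f : Fin d → ℝ → ℝ)
    (hd : ∀ i, ∀ t ∈ J i, DifferentiableAt ℝ (f i) t)
    (u : EuclideanSpace ℝ (Fin d) → ℝ)
    (huf : ∀ x : EuclideanSpace ℝ (Fin d), (∀ i, x i ∈ J i) → u x = ∑ i, f i (x i))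
    (x : EuclideanSpace ℝ (Fin d)) (hx : ∀ i, x i ∈ J i) :
    HasFDerivAt u (∑ i, deriv (f i) (x i) •
      (EuclideanSpace.proj i : EuclideanSpace ℝ (Fin d) →L[ℝ] ℝ)) x := by
  have h0 : HasFDerivAt (fun x : EuclideanSpace ℝ (Fin d) => ∑ i, f i (x i))
      (∑ i, deriv (f i) (x i) •
        (EuclideanSpace.proj i : EuclideanSpace ℝ (Fin d) →L[ℝ] ℝ)) x := by
    apply HasFDerivAt.fun_sum
    intro i _
    have h1 : HasDerivAt (f i) (deriv (f i) (x i)) (x i) := (hd i (x i) (hx i)).hasDerivAt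
    have h2 : HasFDerivAt (fun x : EuclideanSpace ℝ (Fin d) => x i)
        (EuclideanSpace.proj i : EuclideanSpace ℝ (Fin d) →L[ℝ] ℝ) x :=
      (EuclideanSpace.proj i : EuclideanSpace ℝ (Fin d) →L[ℝ] ℝ).hasFDerivAt
    exact h1.comp_hasFDerivAt x h2
  apply h0.congr_of_eventuallyEq
  filter_upwards [eventually_mem_box J hJo x hx] with x' hx'
  exact huf x' hx'

/-- Scale-invariant `C^{1,1/3}` estimate for separable infinity-harmonic functions on a box whose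
sides have length at least `L`, in terms of a bound `M` for the oscillation of `u` on the box. -/
theorem sep_estimate (J : Fin d → Set ℝ) (hJo : ∀ i, IsOpen (J i))
    (hJc : ∀ i, (J i).OrdConnected) (hJne : ∀ i, (J i).Nonempty)
    (f : Fin d → ℝ → ℝ) (hf : ∀ i, ContinuousOn (f i) (J i))
    (Ω : Set (EuclideanSpace ℝ (Fin d)))
    (hΩ : {x : EuclideanSpace ℝ (Fin d) | ∀ i, x i ∈ J i} ⊆ Ω)
    (u : EuclideanSpace ℝ (Fin d) → ℝ) (hu : InfHarmonicOn Ω u)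
    (huf : ∀ x : EuclideanSpace ℝ (Fin d), (∀ i, x i ∈ J i) → u x = ∑ i, f i (x i))
    (M L : ℝ) (hL : 0 < L)
    (hM : ∀ x y : EuclideanSpace ℝ (Fin d), (∀ i, x i ∈ J i) → (∀ i, y i ∈ J i) →
      |u x - u y| ≤ M)
    (hlen : ∀ i, ∃ s ∈ J i, ∃ t ∈ J i, L ≤ t - s) :
    (∀ i, ∀ s ∈ J i, ∀ t ∈ J i,
      |deriv (f i) s - deriv (f i) t| ^ 3 * L ^ 4 ≤ 1024 * M ^ 3 * |s - t|) ∧
    ∀ x y : EuclideanSpace ℝ (Fin d), (∀ i, x i ∈ J i) → (∀ i, y i ∈ J i) →
      ‖fderiv ℝ u x - fderiv ℝ u y‖ ^ 3 * L ^ 4 ≤ 1024 * (d : ℝ) ^ 3 * M ^ 3 * ‖x - y‖ := by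
  classical
  obtain ⟨c, b, -, hcb⟩ := cube_affine J hJo hJc hJne f hf Ω hΩ u hu huf
  choose t0 ht0 using hJne
  have hM0 : 0 ≤ M := by
    have hz : ∀ i, (WithLp.toLp 2 t0 : EuclideanSpace ℝ (Fin d)) i ∈ J i := fun i => by
      simpa using ht0 i
    have := hM _ _ hz hz
    rw [sub_self, abs_zero] at this
    exact this
  have hosc : ∀ i, ∀ r ∈ J i, ∀ r' ∈ J i, |f i r - f i r'| ≤ M := by
    intro i r hr r' hr'
    set X : EuclideanSpace ℝ (Fin d) := WithLp.toLp 2 (fun j => if j = i then r else t0 j)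
      with hX
    set Y : EuclideanSpace ℝ (Fin d) := WithLp.toLp 2 (fun j => if j = i then r' else t0 j)
      with hY
    have hXj : ∀ j, X j = if j = i then r else t0 j := fun j => by simp [hX]
    have hYj : ∀ j, Y j = if j = i then r' else t0 j := fun j => by simp [hY]
    have hXJ : ∀ j, X j ∈ J j := by
      intro j
      rw [hXj]
      by_cases hji : j = i
      · rw [if_pos hji, hji]; exact hr
      · rw [if_neg hji]; exact ht0 j
    have hYJ : ∀ j, Y j ∈ J j := by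
      intro j
      rw [hYj]
      by_cases hji : j = i
      · rw [if_pos hji, hji]; exact hr'
      · rw [if_neg hji]; exact ht0 j
    have h1 := hM X Y hXJ hYJ
    rw [huf X hXJ, huf Y hYJ, ← Finset.sum_sub_distrib] at h1
    have e : ∑ j, (f j (X j) - f j (Y j)) = f i r - f i r' := by
      rw [Finset.sum_eq_single i]
      · rw [hXj, hYj, if_pos rfl, if_pos rfl]
      · intro j _ hji
        rw [hXj, hYj, if_neg hji, if_neg hji, sub_self]
      · intro h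
        exact absurd (Finset.mem_univ i) h
    rw [e] at h1
    exact h1
  have hcL : ∀ i, |c i| * L ^ 4 ≤ 256 * M ^ 3 := by
    intro i
    obtain ⟨s, hs, t, ht, hst⟩ := hlen i
    have hlt : s < t := by linarith
    have hsub : Icc s t ⊆ J i := (hJc i).out hs ht
    obtain ⟨x, hx, y, hy, hxy⟩ := slope_le_osc hlt (fun r hr => (hcb i r (hsub hr)).1)
      (fun r hr => (hcb i r (hsub hr)).2)
    have h1 := hosc i x (hsub hx) y (hsub hy)
    have h2 : |f i x - f i y| ^ 3 ≤ M ^ 3 := pow_le_pow_left₀ (abs_nonneg _) h1 3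
    have h3 : L ^ 4 ≤ (t - s) ^ 4 := pow_le_pow_left₀ hL.le hst 4
    have h4 : |c i| * L ^ 4 ≤ |c i| * (t - s) ^ 4 := mul_le_mul_of_nonneg_left h3 (abs_nonneg _)
    linarith
  have hδ : ∀ i, ∀ s ∈ J i, ∀ t ∈ J i,
      |deriv (f i) s - deriv (f i) t| ^ 3 * L ^ 4 ≤ 1024 * M ^ 3 * |s - t| := by
    intro i s hs t ht
    have h1 := abs_sub_cube_le (deriv (f i) s) (deriv (f i) t)
    rw [(hcb i s hs).2, (hcb i t ht).2] at h1
    have e : c i * s + b i - (c i * t + b i) = c i * (s - t) := by ring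
    rw [e, abs_mul] at h1
    have h3 : |deriv (f i) s - deriv (f i) t| ^ 3 * L ^ 4 ≤ 4 * (|c i| * |s - t|) * L ^ 4 :=
      mul_le_mul_of_nonneg_right h1 (by positivity)
    have h4 : |c i| * L ^ 4 * |s - t| ≤ 256 * M ^ 3 * |s - t| :=
      mul_le_mul_of_nonneg_right (hcL i) (abs_nonneg _)
    have e2 : 4 * (|c i| * |s - t|) * L ^ 4 = 4 * (|c i| * L ^ 4 * |s - t|) := by ring
    rw [e2] at h3
    linarith
  refine ⟨hδ, ?_⟩
  intro x y hx hy
  have hdiff : ∀ i, ∀ t ∈ J i, DifferentiableAt ℝ (f i) t := fun i t ht => (hcb i t ht).1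
  rw [(hasFDerivAt_sep J hJo f hdiff u huf x hx).fderiv,
    (hasFDerivAt_sep J hJo f hdiff u huf y hy).fderiv, ← Finset.sum_sub_distrib]
  set δ : Fin d → ℝ := fun i => deriv (f i) (x i) - deriv (f i) (y i) with hδdef
  have hterm : ∀ i : Fin d,
      ‖deriv (f i) (x i) • (EuclideanSpace.proj i : EuclideanSpace ℝ (Fin d) →L[ℝ] ℝ)
        - deriv (f i) (y i) • (EuclideanSpace.proj i : EuclideanSpace ℝ (Fin d) →L[ℝ] ℝ)‖
        ≤ |δ i| := by
    intro i
    rw [← sub_smul, norm_smul, Real.norm_eq_abs]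
    have := mul_le_mul_of_nonneg_left (proj_norm_le i) (abs_nonneg (δ i))
    rw [mul_one] at this
    exact this
  have hN : ‖∑ i, (deriv (f i) (x i) • (EuclideanSpace.proj i : EuclideanSpace ℝ (Fin d) →L[ℝ] ℝ)
        - deriv (f i) (y i) • (EuclideanSpace.proj i : EuclideanSpace ℝ (Fin d) →L[ℝ] ℝ))‖
      ≤ ∑ i, |δ i| :=
    (norm_sum_le _ _).trans (Finset.sum_le_sum (fun i _ => hterm i))
  set N := ‖∑ i, (deriv (f i) (x i) • (EuclideanSpace.proj i : EuclideanSpace ℝ (Fin d) →L[ℝ] ℝ)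
        - deriv (f i) (y i) • (EuclideanSpace.proj i : EuclideanSpace ℝ (Fin d) →L[ℝ] ℝ))‖
    with hNdef
  have hN0 : 0 ≤ N := norm_nonneg _
  have hxy0 : 0 ≤ ‖x - y‖ := norm_nonneg _
  have hd0 : (0 : ℝ) ≤ (d : ℝ) := Nat.cast_nonneg d
  rcases (Finset.univ : Finset (Fin d)).eq_empty_or_nonempty with hemp | hne
  · rw [hemp, Finset.sum_empty] at hN
    have hNz : N = 0 := le_antisymm hN hN0
    rw [hNz]
    have : 0 ≤ 1024 * (d : ℝ) ^ 3 * M ^ 3 * ‖x - y‖ := by positivity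
    simpa using this
  · obtain ⟨i0, -, hi0⟩ := Finset.exists_max_image Finset.univ (fun j => |δ j|) hne
    have h1 : N ≤ (d : ℝ) * |δ i0| := by
      have : ∑ i, |δ i| ≤ ∑ _i : Fin d, |δ i0| :=
        Finset.sum_le_sum (fun i hi => hi0 i hi)
      rw [Finset.sum_const, Finset.card_univ, Fintype.card_fin, nsmul_eq_mul] at this
      exact hN.trans this
    have h2 : N ^ 3 ≤ ((d : ℝ) * |δ i0|) ^ 3 := pow_le_pow_left₀ hN0 h1 3
    rw [mul_pow] at h2
    have h3 := hδ i0 (x i0) (hx i0) (y i0) (hy i0)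
    have h4 : |x i0 - y i0| ≤ ‖x - y‖ := by
      have := PiLp.norm_apply_le (x - y) i0
      simpa [Real.norm_eq_abs] using this
    have h5 : N ^ 3 * L ^ 4 ≤ (d : ℝ) ^ 3 * |δ i0| ^ 3 * L ^ 4 :=
      mul_le_mul_of_nonneg_right h2 (by positivity)
    have h6 : (d : ℝ) ^ 3 * (|δ i0| ^ 3 * L ^ 4) ≤ (d : ℝ) ^ 3 * (1024 * M ^ 3 * |x i0 - y i0|) :=
      mul_le_mul_of_nonneg_left h3 (by positivity)
    have h7 : (d : ℝ) ^ 3 * (1024 * M ^ 3 * |x i0 - y i0|)
        ≤ (d : ℝ) ^ 3 * (1024 * M ^ 3 * ‖x - y‖) :=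
      mul_le_mul_of_nonneg_left (mul_le_mul_of_nonneg_left h4 (by positivity)) (by positivity)
    have e1 : (d : ℝ) ^ 3 * |δ i0| ^ 3 * L ^ 4 = (d : ℝ) ^ 3 * (|δ i0| ^ 3 * L ^ 4) := by ring
    have e2 : (d : ℝ) ^ 3 * (1024 * M ^ 3 * ‖x - y‖) = 1024 * (d : ℝ) ^ 3 * M ^ 3 * ‖x - y‖ := by
      ring
    rw [e1] at h5
    rw [← e2]
    exact h5.trans (h6.trans h7)

end Vale.Agent.Lib.P080
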