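import Vale.Agent.Lib.P080.Classify

namespace Vale.Agent.Lib.P080

open Filter Topology Set

/-- Necessary second-order condition at a local maximum. -/
lemma deriv2_nonpos_of_isLocalMax {g : ℝ → ℝ} {x : ℝ} (hmax : IsLocalMax g x)
    (hc : ContinuousAt g x) : deriv (deriv g) x ≤ 0 := by
  by_contra hpos
  rw [not_le] at hpos
  have hd : deriv g x = 0 := hmax.deriv_eq_zero
  have hmin : IsLocalMin g x := isLocalMin_of_deriv_deriv_pos hpos hd hc
  have hconst : g =ᶠ[𝓝 x] fun _ => g x := by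
    filter_upwards [hmax, hmin] with y h1 h2
    exact le_antisymm h1 h2
  have h1 : deriv g =ᶠ[𝓝 x] deriv (fun _ => g x) := hconst.deriv
  have h2 : deriv (deriv g) x = deriv (deriv (fun _ : ℝ => g x)) x := h1.deriv_eq
  rw [h2] at hpos
  simp at hpos

/-- If `h^3` is affine near `z` and `h z ≠ 0`, then `h` is differentiable at `z`. -/
lemma hasDerivAt_of_cube_affine {h : ℝ → ℝ} {z c b : ℝ}
    (hh : ∀ᶠ s in 𝓝 z, h s ^ 3 = c * s + b) (hz : h z ≠ 0) :
    HasDerivAt h (c / (3 * h z ^ 2)) z := by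
  have hz3 : h z ^ 3 = c * z + b := hh.self_of_nhds
  have hcont : ContinuousAt h z := by
    rw [ContinuousAt, Metric.tendsto_nhds]
    intro ε hε
    have h1 : ∀ᶠ s in 𝓝 z, 4 * |c| * |s - z| < ε ^ 3 := by
      have hcts : Continuous (fun s : ℝ => 4 * |c| * |s - z|) := by fun_prop
      have h0 : 4 * |c| * |z - z| < ε ^ 3 := by
        rw [sub_self, abs_zero, mul_zero]
        positivity
      exact hcts.continuousAt.eventually (eventually_lt_nhds h0)
    filter_upwards [hh, h1] with s hs1 hs2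
    rw [Real.dist_eq]
    have h2 := abs_sub_cube_le (h s) (h z)
    rw [hs1, hz3] at h2
    have e : c * s + b - (c * z + b) = c * (s - z) := by ring
    rw [e, abs_mul] at h2
    have h3 : |h s - h z| ^ 3 < ε ^ 3 := by linarith
    exact lt_of_pow_lt_pow_left₀ 3 hε.le h3
  rw [hasDerivAt_iff_tendsto_slope]
  set Q : ℝ → ℝ := fun s => h s ^ 2 + h s * h z + h z ^ 2 with hQ
  have hQpos : ∀ s, 0 < Q s := by
    intro s
    simp only [hQ]
    have : 0 < h z ^ 2 := by positivity
    nlinarith [sq_nonneg (h s + h z / 2)]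
  have hQc : ContinuousAt Q z :=
    ((hcont.pow 2).add (hcont.mul continuousAt_const)).add continuousAt_const
  have hQz : Q z = 3 * h z ^ 2 := by simp only [hQ]; ring
  have hten : Tendsto (fun s => c / Q s) (𝓝[≠] z) (𝓝 (c / (3 * h z ^ 2))) := by
    rw [← hQz]
    exact tendsto_nhdsWithin_of_tendsto_nhds (tendsto_const_nhds.div hQc (hQpos z).ne')
  apply hten.congr'
  filter_upwards [mem_nhdsWithin_of_mem_nhds hh, self_mem_nhdsWithin] with s hs hne
  rw [slope_def_field]
  have hsz : s - z ≠ 0 := sub_ne_zero.mpr hne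
  have e : (h s - h z) * Q s = c * (s - z) := by
    simp only [hQ]
    have : (h s - h z) * (h s ^ 2 + h s * h z + h z ^ 2) = h s ^ 3 - h z ^ 3 := by ring
    rw [this, hs, hz3]
    ring
  rw [div_eq_div_iff (hQpos s).ne' hsz]
  linarith

/-- A function whose derivative is the cube root of `c (s - z)` with `c > 0` cannot be touched
from above at `z` by a twice differentiable function. -/
lemma no_max_of_cuberoot {F ψ h ψ' : ℝ → ℝ} {z c ψ2 : ℝ} (hc : 0 < c)
    (hF : ∀ᶠ s in 𝓝 z, HasDerivAt F (h s) s) (hh : ∀ᶠ s in 𝓝 z, h s ^ 3 = c * (s - z))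
    (hψ : ∀ᶠ s in 𝓝 z, HasDerivAt ψ (ψ' s) s) (hψ0 : ψ' z = 0) (hψ2 : HasDerivAt ψ' ψ2 z)
    (hmax : IsLocalMax (fun s => F s - ψ s) z) : False := by
  set C := |ψ2| + 1 with hC
  have hCpos : 0 < C := by positivity
  have hb : ∀ᶠ s in 𝓝 z, |ψ' s| ≤ C * |s - z| := by
    have h1 : Tendsto (slope ψ' z) (𝓝[≠] z) (𝓝 ψ2) := hasDerivAt_iff_tendsto_slope.mp hψ2
    have h2 : ∀ᶠ s in 𝓝[≠] z, |slope ψ' z s| < C :=
      h1.abs.eventually (eventually_lt_nhds (by rw [hC]; linarith))
    rw [eventually_nhdsWithin_iff] at h2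
    filter_upwards [h2] with s hs
    by_cases hsz : s = z
    · rw [hsz, hψ0, sub_self, abs_zero, mul_zero]
    · have h3 := hs hsz
      rw [slope_def_field, hψ0, sub_zero, abs_div, div_lt_iff₀ (abs_pos.mpr (sub_ne_zero.mpr hsz))]
        at h3
      exact h3.le
  have hall : ∀ᶠ s in 𝓝 z, HasDerivAt F (h s) s ∧ h s ^ 3 = c * (s - z) ∧ HasDerivAt ψ (ψ' s) s
      ∧ |ψ' s| ≤ C * |s - z| ∧ F s - ψ s ≤ F z - ψ z := by
    filter_upwards [hF, hh, hψ, hb, hmax] with s a1 a2 a3 a4 a5
    exact ⟨a1, a2, a3, a4, a5⟩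
  obtain ⟨ρ, hρ, hball⟩ := Metric.eventually_nhds_iff.mp hall
  set σ := min (ρ / 2) (min 1 (c / (2 * C ^ 3))) with hσ
  have hσpos : 0 < σ := lt_min (by positivity) (lt_min one_pos (by positivity))
  have hσρ : σ < ρ := lt_of_le_of_lt (min_le_left _ _) (by linarith)
  have hσ1 : σ ≤ 1 := (min_le_right _ _).trans (min_le_left _ _)
  have hσc : C ^ 3 * σ ≤ c / 2 := by
    have h1 : σ ≤ c / (2 * C ^ 3) := (min_le_right _ _).trans (min_le_right _ _)
    rw [le_div_iff₀ (by positivity)] at h1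
    linarith
  have hin : ∀ ξ, z ≤ ξ → ξ ≤ z + σ → dist ξ z < ρ := by
    intro ξ h1 h2
    rw [Real.dist_eq, abs_of_nonneg (by linarith)]
    linarith
  set k : ℝ → ℝ := fun s => F s - ψ s with hk
  have hkd : ∀ ξ, z ≤ ξ → ξ ≤ z + σ → HasDerivAt k (h ξ - ψ' ξ) ξ := by
    intro ξ h1 h2
    obtain ⟨a1, -, a3, -, -⟩ := hball (hin ξ h1 h2)
    exact a1.sub a3
  have hkc : ContinuousOn k (Icc z (z + σ)) := fun ξ hξ =>
    (hkd ξ hξ.1 hξ.2).continuousAt.continuousWithinAt
  obtain ⟨ξ, hξ, hξe⟩ := exists_hasDerivAt_eq_slope k (fun ξ => h ξ - ψ' ξ)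
    (by linarith : z < z + σ) hkc (fun ξ hξ => hkd ξ hξ.1.le hξ.2.le)
  obtain ⟨-, a2, -, a4, -⟩ := hball (hin ξ hξ.1.le hξ.2.le)
  obtain ⟨-, -, -, -, a5⟩ := hball (hin (z + σ) (by linarith) (le_refl _))
  have hξz : 0 < ξ - z := by linarith [hξ.1]
  have hξσ : ξ - z ≤ σ := by linarith [hξ.2]
  rw [abs_of_pos hξz] at a4
  have hh3 : 0 < h ξ ^ 3 := by rw [a2]; positivity
  have hhpos : 0 < h ξ := (Odd.pow_pos_iff (by decide : Odd 3)).mp hh3
  have hlt : (C * (ξ - z)) ^ 3 < h ξ ^ 3 := by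
    rw [a2]
    have e1 : (C * (ξ - z)) ^ 3 = C ^ 3 * (ξ - z) ^ 2 * (ξ - z) := by ring
    have e2 : (ξ - z) ^ 2 ≤ σ := by nlinarith
    have e3 : C ^ 3 * (ξ - z) ^ 2 ≤ C ^ 3 * σ := mul_le_mul_of_nonneg_left e2 (by positivity)
    have e4 : C ^ 3 * (ξ - z) ^ 2 * (ξ - z) ≤ c / 2 * (ξ - z) :=
      mul_le_mul_of_nonneg_right (e3.trans hσc) hξz.le
    rw [e1]
    nlinarith
  have hlt' : C * (ξ - z) < h ξ := lt_of_pow_lt_pow_left₀ 3 hhpos.le hlt
  have hder : 0 < h ξ - ψ' ξ := by
    have := le_abs_self (ψ' ξ)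
    linarith
  rw [hξe] at hder
  have e5 : z + σ - z = σ := by ring
  rw [e5] at hder
  have hnum : 0 < k (z + σ) - k z := by
    by_contra hneg
    have : (k (z + σ) - k z) / σ ≤ 0 := div_nonpos_of_nonpos_of_nonneg (not_lt.mp hneg) hσpos.le
    linarith
  simp only [hk] at hnum
  linarith

variable {d : ℕ}

lemma toLp_eq_sum (v : Fin d → ℝ) :
    (WithLp.toLp 2 v : EuclideanSpace ℝ (Fin d)) = ∑ i, v i • EuclideanSpace.single i (1 : ℝ) := by
  ext j
  simp [Pi.single_apply]

lemma clm_toLp (v : Fin d → ℝ) (L : EuclideanSpace ℝ (Fin d) →L[ℝ] ℝ) :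
    L (WithLp.toLp 2 v) = ∑ i, v i * L (EuclideanSpace.single i (1 : ℝ)) := by
  rw [toLp_eq_sum]
  simp [map_sum]

lemma pderiv_differentiable {φ : EuclideanSpace ℝ (Fin d) → ℝ} (hφ : ContDiff ℝ 2 φ) (i : Fin d) :
    Differentiable ℝ (pderiv i φ) := by
  have h1 : ContDiff ℝ 1 (fderiv ℝ φ) := hφ.fderiv_right (by norm_num)
  have h2 : ContDiff ℝ 1 (fun y => fderiv ℝ φ y (EuclideanSpace.single i (1 : ℝ))) :=
    h1.clm_apply contDiff_const
  exact h2.differentiable (by norm_num)

/-- First derivative of `τ ↦ φ (z + τ P)` in terms of partial derivatives. -/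
lemma line_deriv {φ : EuclideanSpace ℝ (Fin d) → ℝ} (hφ : ContDiff ℝ 2 φ)
    (z : EuclideanSpace ℝ (Fin d)) (v : Fin d → ℝ) (τ : ℝ) :
    HasDerivAt (fun τ : ℝ => φ (z + τ • (WithLp.toLp 2 v : EuclideanSpace ℝ (Fin d))))
      (∑ i, v i * pderiv i φ (z + τ • (WithLp.toLp 2 v : EuclideanSpace ℝ (Fin d)))) τ := by
  set P : EuclideanSpace ℝ (Fin d) := WithLp.toLp 2 v with hP
  have h1 : HasFDerivAt φ (fderiv ℝ φ (z + τ • P)) (z + τ • P) :=
    (hφ.differentiable (by norm_num)).differentiableAt.hasFDerivAt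
  have h2 : HasDerivAt (fun τ : ℝ => z + τ • P) P τ := by
    have := ((hasDerivAt_id τ).smul_const P).const_add z
    simpa using this
  have h3 := h1.comp_hasDerivAt τ h2
  have e : fderiv ℝ φ (z + τ • P) P = ∑ i, v i * pderiv i φ (z + τ • P) := by
    rw [hP, clm_toLp]
    rfl
  rw [e] at h3
  exact h3

/-- Second derivative of `τ ↦ φ (z + τ P)` at `0` in terms of partial derivatives. -/
lemma line_deriv2 {φ : EuclideanSpace ℝ (Fin d) → ℝ} (hφ : ContDiff ℝ 2 φ)
    (z : EuclideanSpace ℝ (Fin d)) (v : Fin d → ℝ) :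
    HasDerivAt
      (fun τ : ℝ => ∑ i, v i * pderiv i φ (z + τ • (WithLp.toLp 2 v : EuclideanSpace ℝ (Fin d))))
      (∑ i, ∑ j, v i * v j * pderiv j (pderiv i φ) z) 0 := by
  set P : EuclideanSpace ℝ (Fin d) := WithLp.toLp 2 v with hP
  apply HasDerivAt.fun_sum
  intro i _
  have hd := pderiv_differentiable hφ i
  have h1 : HasFDerivAt (pderiv i φ) (fderiv ℝ (pderiv i φ) (z + (0 : ℝ) • P))
      (z + (0 : ℝ) • P) := hd.differentiableAt.hasFDerivAt
  have h2 : HasDerivAt (fun τ : ℝ => z + τ • P) P 0 := by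
    have := ((hasDerivAt_id (0 : ℝ)).smul_const P).const_add z
    simpa using this
  have h3 := (h1.comp_hasDerivAt 0 h2).const_mul (v i)
  have e : v i * fderiv ℝ (pderiv i φ) (z + (0 : ℝ) • P) P
      = ∑ j, v i * v j * pderiv j (pderiv i φ) z := by
    rw [zero_smul, add_zero, hP, clm_toLp, Finset.mul_sum]
    apply Finset.sum_congr rfl
    intro j _
    rw [mul_assoc]
    rfl
  rw [e] at h3
  exact h3

/-- Sufficiency, test functions touching from above: if every `f_i'^3` is affine on `J_i` and the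
slopes add up to zero, then `Δ_∞ φ (z) ≥ 0` whenever `u - φ` has a local maximum at a point `z`
of the box. -/
lemma max_part (J : Fin d → Set ℝ) (hJo : ∀ i, IsOpen (J i)) (f : Fin d → ℝ → ℝ)
    (c b : Fin d → ℝ) (hc : ∑ i, c i = 0)
    (hcb : ∀ i, ∀ t ∈ J i, DifferentiableAt ℝ (f i) t ∧ deriv (f i) t ^ 3 = c i * t + b i)
    (u : EuclideanSpace ℝ (Fin d) → ℝ)
    (huf : ∀ x : EuclideanSpace ℝ (Fin d), (∀ i, x i ∈ J i) → u x = ∑ i, f i (x i))
    (φ : EuclideanSpace ℝ (Fin d) → ℝ) (hφ : ContDiff ℝ 2 φ)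
    (z : EuclideanSpace ℝ (Fin d)) (hz : ∀ i, z i ∈ J i)
    (hmax : IsLocalMax (fun x => u x - φ x) z) : 0 ≤ infLap φ z := by
  classical
  set p : Fin d → ℝ := fun i => pderiv i φ z with hp
  have hcoord : ∀ i, deriv (f i) (z i) = p i ∧ (p i = 0 → c i ≤ 0) := by
    intro i
    set e : EuclideanSpace ℝ (Fin d) := EuclideanSpace.single i (1 : ℝ) with he
    set γ : ℝ → EuclideanSpace ℝ (Fin d) := fun s => z + (s - z i) • e with hγ
    have hγz : γ (z i) = z := by simp [hγ]
    have hγc : Continuous γ := by rw [hγ]; fun_prop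
    have hγj : ∀ s j, γ s j = if j = i then s else z j := by
      intro s j
      by_cases h : j = i
      · subst h; simp [hγ, he]
      · simp [hγ, he, h]
    set ψ : ℝ → ℝ := fun s => φ (γ s) with hψ
    have hψ2 : ContDiff ℝ 2 ψ := hφ.comp (by rw [hγ]; fun_prop)
    have hψd : Differentiable ℝ ψ := hψ2.differentiable (by norm_num)
    have hψ' : ContDiff ℝ 1 (deriv ψ) := by
      have h2 : ContDiff ℝ ((1 : WithTop ℕ∞) + 1) ψ := by
        have e2 : ((1 : WithTop ℕ∞) + 1) = 2 := by norm_num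
        rw [e2]
        exact hψ2
      exact (contDiff_succ_iff_deriv.mp h2).2.2
    have hψ'd : Differentiable ℝ (deriv ψ) := hψ'.differentiable (by norm_num)
    have hψz : deriv ψ (z i) = p i := by
      have h1 : HasFDerivAt φ (fderiv ℝ φ (γ (z i))) (γ (z i)) :=
        (hφ.differentiable (by norm_num)).differentiableAt.hasFDerivAt
      have h2 : HasDerivAt γ e (z i) := by
        have h := (((hasDerivAt_id (z i)).sub_const (z i)).smul_const e).const_add z
        refine h.congr_deriv ?_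
        simp
      have h3 := h1.comp_hasDerivAt (z i) h2
      rw [hγz] at h3
      exact h3.deriv
    have hJi : ∀ᶠ s in 𝓝 (z i), s ∈ J i := (hJo i).mem_nhds (hz i)
    have hloc : IsLocalMax (fun s => f i s - ψ s) (z i) := by
      have h1 : IsLocalMax ((fun x => u x - φ x) ∘ γ) (z i) := by
        apply IsLocalMax.comp_continuous _ hγc.continuousAt
        rw [hγz]
        exact hmax
      set R := ∑ j ∈ Finset.univ.erase i, f j (z j) with hR
      have h2 : ∀ s ∈ J i, u (γ s) = f i s + R := by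
        intro s hs
        have hmem : ∀ j, γ s j ∈ J j := by
          intro j
          rw [hγj]
          by_cases h : j = i
          · rw [if_pos h, h]; exact hs
          · rw [if_neg h]; exact hz j
        rw [huf _ hmem, ← Finset.add_sum_erase _ _ (Finset.mem_univ i)]
        congr 1
        · rw [hγj, if_pos rfl]
        · apply Finset.sum_congr rfl
          intro j hj
          rw [hγj, if_neg (Finset.ne_of_mem_erase hj)]
      filter_upwards [h1, hJi] with s hs hsJ
      have hs' : u (γ s) - φ (γ s) ≤ u (γ (z i)) - φ (γ (z i)) := hs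
      rw [h2 s hsJ, h2 (z i) (hz i)] at hs'
      show f i s - ψ s ≤ f i (z i) - ψ (z i)
      simp only [hψ]
      linarith
    have hfd : ∀ᶠ s in 𝓝 (z i), HasDerivAt (f i) (deriv (f i) s) s := by
      filter_upwards [hJi] with s hs
      exact (hcb i s hs).1.hasDerivAt
    have hfirst : deriv (f i) (z i) = p i := by
      have h1 : HasDerivAt (fun s => f i s - ψ s) (deriv (f i) (z i) - deriv ψ (z i)) (z i) :=
        ((hcb i (z i) (hz i)).1.hasDerivAt).sub (hψd (z i)).hasDerivAt
      have := hloc.hasDerivAt_eq_zero h1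
      rw [hψz] at this
      linarith
    refine ⟨hfirst, ?_⟩
    intro hp0
    by_contra hcpos
    rw [not_le] at hcpos
    have hzero : c i * z i + b i = 0 := by
      have := (hcb i (z i) (hz i)).2
      rw [hfirst, hp0] at this
      rw [← this]
      norm_num
    have hh : ∀ᶠ s in 𝓝 (z i), deriv (f i) s ^ 3 = c i * (s - z i) := by
      filter_upwards [hJi] with s hs
      rw [(hcb i s hs).2]
      linarith
    exact no_max_of_cuberoot hcpos hfd hh (Eventually.of_forall (fun s => (hψd s).hasDerivAt))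
      (by rw [hψz]; exact hp0) (hψ'd (z i)).hasDerivAt hloc
  set P : EuclideanSpace ℝ (Fin d) := WithLp.toLp 2 p with hP
  set γ : ℝ → EuclideanSpace ℝ (Fin d) := fun τ => z + τ • P with hγ
  have hγ0 : γ 0 = z := by simp [hγ]
  have hγc : Continuous γ := by rw [hγ]; fun_prop
  have hγj : ∀ τ j, γ τ j = z j + τ * p j := by
    intro τ j
    simp [hγ, hP]
  set g : ℝ → ℝ := fun τ => u (γ τ) - φ (γ τ) with hg
  have hgmax : IsLocalMax g 0 := by
    have h1 : IsLocalMax ((fun x => u x - φ x) ∘ γ) 0 := by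
      apply IsLocalMax.comp_continuous _ hγc.continuousAt
      rw [hγ0]
      exact hmax
    exact h1
  set W : Set ℝ := {τ | ∀ j, z j + τ * p j ∈ J j} with hW
  have hWo : IsOpen W := by
    have : W = ⋂ j, (fun τ : ℝ => z j + τ * p j) ⁻¹' (J j) := by
      ext τ
      simp [hW]
    rw [this]
    exact isOpen_iInter_of_finite (fun j => (hJo j).preimage (by fun_prop))
  have h0W : (0 : ℝ) ∈ W := by
    intro j
    simpa using hz j
  set G1 : ℝ → ℝ := fun τ => (∑ i, deriv (f i) (z i + τ * p i) * p i)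
    - ∑ i, p i * pderiv i φ (z + τ • P) with hG1
  have hgd : ∀ τ ∈ W, HasDerivAt g (G1 τ) τ := by
    intro τ hτ
    have h1 : HasDerivAt (fun τ : ℝ => ∑ i, f i (z i + τ * p i))
        (∑ i, deriv (f i) (z i + τ * p i) * p i) τ := by
      apply HasDerivAt.fun_sum
      intro i _
      have a1 : HasDerivAt (f i) (deriv (f i) (z i + τ * p i)) (z i + τ * p i) :=
        (hcb i _ (hτ i)).1.hasDerivAt
      have a2 : HasDerivAt (fun τ : ℝ => z i + τ * p i) (p i) τ := by
        have := ((hasDerivAt_id τ).mul_const (p i)).const_add (z i)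
        simpa using this
      exact a1.comp τ a2
    have h2 := line_deriv hφ z p τ
    have h3 := h1.sub h2
    apply h3.congr_of_eventuallyEq
    filter_upwards [hWo.mem_nhds hτ] with τ' hτ'
    simp only [hg]
    rw [huf (γ τ') (fun j => by rw [hγj]; exact hτ' j)]
    congr 1
  have hgc : ContinuousAt g 0 := (hgd 0 h0W).continuousAt
  have hderiv : deriv g =ᶠ[𝓝 0] G1 := by
    filter_upwards [hWo.mem_nhds h0W] with τ hτ
    exact (hgd τ hτ).deriv
  have hG1d : HasDerivAt G1 ((∑ i, if p i = 0 then 0 else c i / 3) - infLap φ z) 0 := by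
    have hA : HasDerivAt (fun τ : ℝ => ∑ i, deriv (f i) (z i + τ * p i) * p i)
        (∑ i, if p i = 0 then 0 else c i / 3) 0 := by
      apply HasDerivAt.fun_sum
      intro i _
      by_cases hpi : p i = 0
      · rw [if_pos hpi]
        have : (fun τ : ℝ => deriv (f i) (z i + τ * p i) * p i) = fun _ => 0 := by
          funext τ
          rw [hpi]
          ring
        rw [this]
        exact hasDerivAt_const 0 0
      · rw [if_neg hpi]
        have hhz : deriv (f i) (z i) = p i := (hcoord i).1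
        have hev : ∀ᶠ s in 𝓝 (z i), deriv (f i) s ^ 3 = c i * s + b i := by
          filter_upwards [(hJo i).mem_nhds (hz i)] with s hs
          exact (hcb i s hs).2
        have a1 : HasDerivAt (deriv (f i)) (c i / (3 * deriv (f i) (z i) ^ 2)) (z i) :=
          hasDerivAt_of_cube_affine hev (by rw [hhz]; exact hpi)
        have a2 : HasDerivAt (fun τ : ℝ => z i + τ * p i) (p i) 0 := by
          have := ((hasDerivAt_id (0 : ℝ)).mul_const (p i)).const_add (z i)
          simpa using this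
        have a1' : HasDerivAt (deriv (f i)) (c i / (3 * deriv (f i) (z i) ^ 2))
            (z i + 0 * p i) := by
          rw [zero_mul, add_zero]
          exact a1
        have a3 := (a1'.comp 0 a2).mul_const (p i)
        refine a3.congr_deriv ?_
        rw [hhz]
        field_simp
    have hB : HasDerivAt (fun τ : ℝ => ∑ i, p i * pderiv i φ (z + τ • P)) (infLap φ z) 0 := by
      have := line_deriv2 hφ z p
      refine this.congr_deriv ?_
      unfold infLap
      rfl
    exact hA.sub hB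
  have h2 : deriv (deriv g) 0 = (∑ i, if p i = 0 then 0 else c i / 3) - infLap φ z := by
    rw [hderiv.deriv_eq]
    exact hG1d.deriv
  have h3 := deriv2_nonpos_of_isLocalMax hgmax hgc
  rw [h2] at h3
  have h4 : ∑ i, c i / 3 ≤ ∑ i, if p i = 0 then 0 else c i / 3 := by
    apply Finset.sum_le_sum
    intro i _
    by_cases hpi : p i = 0
    · rw [if_pos hpi]
      have := (hcoord i).2 hpi
      linarith
    · rw [if_neg hpi]
  have h5 : ∑ i, c i / 3 = 0 := by rw [← Finset.sum_div, hc, zero_div]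
  linarith

lemma pderiv_neg (φ : EuclideanSpace ℝ (Fin d) → ℝ) (i : Fin d) :
    pderiv i (fun x => - φ x) = fun y => - pderiv i φ y := by
  funext y
  unfold pderiv
  rw [fderiv_fun_neg]
  rfl

lemma infLap_neg (φ : EuclideanSpace ℝ (Fin d) → ℝ) (z : EuclideanSpace ℝ (Fin d)) :
    infLap (fun x => - φ x) z = - infLap φ z := by
  unfold infLap
  simp only [pderiv_neg]
  rw [← Finset.sum_neg_distrib]
  apply Finset.sum_congr rfl
  intro i _
  rw [← Finset.sum_neg_distrib]
  apply Finset.sum_congr rfl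
  intro j _
  ring

/-- Sufficiency, test functions touching from below. -/
lemma min_part (J : Fin d → Set ℝ) (hJo : ∀ i, IsOpen (J i)) (f : Fin d → ℝ → ℝ)
    (c b : Fin d → ℝ) (hc : ∑ i, c i = 0)
    (hcb : ∀ i, ∀ t ∈ J i, DifferentiableAt ℝ (f i) t ∧ deriv (f i) t ^ 3 = c i * t + b i)
    (u : EuclideanSpace ℝ (Fin d) → ℝ)
    (huf : ∀ x : EuclideanSpace ℝ (Fin d), (∀ i, x i ∈ J i) → u x = ∑ i, f i (x i))
    (φ : EuclideanSpace ℝ (Fin d) → ℝ) (hφ : ContDiff ℝ 2 φ)
    (z : EuclideanSpace ℝ (Fin d)) (hz : ∀ i, z i ∈ J i)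
    (hmin : IsLocalMin (fun x => u x - φ x) z) : infLap φ z ≤ 0 := by
  have hcb' : ∀ i, ∀ t ∈ J i, DifferentiableAt ℝ (fun s => - f i s) t ∧
      deriv (fun s => - f i s) t ^ 3 = (- c i) * t + (- b i) := by
    intro i t ht
    obtain ⟨h1, h2⟩ := hcb i t ht
    refine ⟨h1.neg, ?_⟩
    rw [deriv.fun_neg]
    have e : (- deriv (f i) t) ^ 3 = - (deriv (f i) t ^ 3) := by ring
    rw [e, h2]
    ring
  have hc' : ∑ i, - c i = 0 := by rw [Finset.sum_neg_distrib, hc, neg_zero]
  have huf' : ∀ x : EuclideanSpace ℝ (Fin d), (∀ i, x i ∈ J i) →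
      - u x = ∑ i, - f i (x i) := by
    intro x hx
    rw [huf x hx, Finset.sum_neg_distrib]
  have hmax' : IsLocalMax (fun x => - u x - - φ x) z := by
    filter_upwards [hmin] with x hx
    have hx' : u z - φ z ≤ u x - φ x := hx
    show - u x - - φ x ≤ - u z - - φ z
    linarith
  have h1 := max_part J hJo (fun i s => - f i s) (fun i => - c i) (fun i => - b i) hc' hcb'
    (fun x => - u x) huf' (fun x => - φ x) hφ.neg z hz hmax'
  rw [infLap_neg] at h1
  linarith

/-- Sufficiency: a sum of functions of the single coordinates whose derivatives are cube roots of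
affine functions with slopes adding up to zero is infinity-harmonic on the box. -/
theorem infHarmonicOn_of_cube_affine (J : Fin d → Set ℝ) (hJo : ∀ i, IsOpen (J i))
    (f : Fin d → ℝ → ℝ) (c b : Fin d → ℝ) (hc : ∑ i, c i = 0)
    (hcb : ∀ i, ∀ t ∈ J i, DifferentiableAt ℝ (f i) t ∧ deriv (f i) t ^ 3 = c i * t + b i)
    (u : EuclideanSpace ℝ (Fin d) → ℝ)
    (huf : ∀ x : EuclideanSpace ℝ (Fin d), (∀ i, x i ∈ J i) → u x = ∑ i, f i (x i)) :
    InfHarmonicOn {x : EuclideanSpace ℝ (Fin d) | ∀ i, x i ∈ J i} u := by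
  refine ⟨?_, fun φ hφ z hz => ⟨max_part J hJo f c b hc hcb u huf φ hφ z hz,
    min_part J hJo f c b hc hcb u huf φ hφ z hz⟩⟩
  have h1 : ContinuousOn (fun x : EuclideanSpace ℝ (Fin d) => ∑ i, f i (x i))
      {x : EuclideanSpace ℝ (Fin d) | ∀ i, x i ∈ J i} := by
    apply continuousOn_finsetSum
    intro i _
    have hfi : ContinuousOn (f i) (J i) := fun t ht =>
      (hcb i t ht).1.continuousAt.continuousWithinAt
    exact hfi.comp
      (by fun_prop : Continuous (fun x : EuclideanSpace ℝ (Fin d) => x i)).continuousOn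
      (fun x hx => hx i)
  exact h1.congr (fun x hx => huf x hx)

end Vale.Agent.Lib.P080
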