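import Mathlib

namespace Vale.Agent.Lib.P080

/-- The partial derivative `∂_i ψ (y)` of a function `ψ` on `ℝ^d`. -/
noncomputable def pderiv {d : ℕ} (i : Fin d) (ψ : EuclideanSpace ℝ (Fin d) → ℝ)
    (y : EuclideanSpace ℝ (Fin d)) : ℝ :=
  fderiv ℝ ψ y (EuclideanSpace.single i 1)

/-- The infinity Laplacian `Δ_∞ φ (z) = ∑_{i,j} φ_i φ_j φ_{ij}`. -/
noncomputable def infLap {d : ℕ} (φ : EuclideanSpace ℝ (Fin d) → ℝ)
    (z : EuclideanSpace ℝ (Fin d)) : ℝ :=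
  ∑ i, ∑ j, pderiv i φ z * pderiv j φ z * pderiv j (pderiv i φ) z

/-- `u` is infinity-harmonic on all of `ℝ^d`: a continuous viscosity solution of `Δ_∞ u = 0`.
Every `C^2` test function `φ` is used: if `u - φ` has a local maximum at `z` then
`Δ_∞ φ (z) ≥ 0`, and if it has a local minimum at `z` then `Δ_∞ φ (z) ≤ 0`. -/
def InfHarmonic {d : ℕ} (u : EuclideanSpace ℝ (Fin d) → ℝ) : Prop :=
  Continuous u ∧
    ∀ φ : EuclideanSpace ℝ (Fin d) → ℝ, ContDiff ℝ 2 φ → ∀ z : EuclideanSpace ℝ (Fin d),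
      (IsLocalMax (fun x => u x - φ x) z → 0 ≤ infLap φ z) ∧
      (IsLocalMin (fun x => u x - φ x) z → infLap φ z ≤ 0)

end Vale.Agent.Lib.P080
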