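import Vale.Agent.Lib.P080.Defs

namespace Vale.Agent.Lib.P080

/-- `u` is infinity-harmonic on the set `Ω ⊆ ℝ^d` (meant for open `Ω`): `u` is continuous on `Ω`
and a viscosity solution of `Δ_∞ u = 0` at every point of `Ω`. Every `C^2` test function `φ` is
used: if `u - φ` has a local maximum at `z ∈ Ω` then `Δ_∞ φ (z) ≥ 0`, and if it has a local
minimum at `z ∈ Ω` then `Δ_∞ φ (z) ≤ 0`. -/
def InfHarmonicOn {d : ℕ} (Ω : Set (EuclideanSpace ℝ (Fin d)))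
    (u : EuclideanSpace ℝ (Fin d) → ℝ) : Prop :=
  ContinuousOn u Ω ∧
    ∀ φ : EuclideanSpace ℝ (Fin d) → ℝ, ContDiff ℝ 2 φ → ∀ z ∈ Ω,
      (IsLocalMax (fun x => u x - φ x) z → 0 ≤ infLap φ z) ∧
      (IsLocalMin (fun x => u x - φ x) z → infLap φ z ≤ 0)

end Vale.Agent.Lib.P080
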