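import Vale.Agent.Lib.P080.Reduce

namespace Vale.Agent.Lib.P080

open Filter Topology

variable {d : ℕ}

lemma proj_norm_le (i : Fin d) :
    ‖(EuclideanSpace.proj i : EuclideanSpace ℝ (Fin d) →L[ℝ] ℝ)‖ ≤ 1 := by
  apply ContinuousLinearMap.opNorm_le_bound _ zero_le_one
  intro v
  rw [one_mul]
  exact PiLp.norm_apply_le v i

/-- Gradient of a separable `C^1` function and its Hölder bound. -/
theorem gradient_holder (f : Fin d → ℝ → ℝ) (hf : ∀ i, ContDiff ℝ 1 (f i)) (C : ℝ) (hC : 0 ≤ C)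
    (hH : ∀ i, ∀ s t : ℝ, |deriv (f i) s - deriv (f i) t| ≤ C * |s - t| ^ ((1 : ℝ) / 3)) :
    ∀ x y : EuclideanSpace ℝ (Fin d),
      ‖fderiv ℝ (fun x : EuclideanSpace ℝ (Fin d) => ∑ i, f i (x i)) x
        - fderiv ℝ (fun x : EuclideanSpace ℝ (Fin d) => ∑ i, f i (x i)) y‖
        ≤ (d * C) * ‖x - y‖ ^ ((1 : ℝ) / 3) := by
  have hfd : ∀ x : EuclideanSpace ℝ (Fin d),
      HasFDerivAt (fun x : EuclideanSpace ℝ (Fin d) => ∑ i, f i (x i))
        (∑ i, deriv (f i) (x i) •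
          (EuclideanSpace.proj i : EuclideanSpace ℝ (Fin d) →L[ℝ] ℝ)) x := by
    intro x
    apply HasFDerivAt.fun_sum
    intro i _
    have h1 : HasDerivAt (f i) (deriv (f i) (x i)) (x i) :=
      ((hf i).differentiable (by norm_num)).differentiableAt.hasDerivAt
    have h2 : HasFDerivAt (fun x : EuclideanSpace ℝ (Fin d) => x i)
        (EuclideanSpace.proj i : EuclideanSpace ℝ (Fin d) →L[ℝ] ℝ) x :=
      (EuclideanSpace.proj i : EuclideanSpace ℝ (Fin d) →L[ℝ] ℝ).hasFDerivAt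
    exact h1.comp_hasFDerivAt x h2
  intro x y
  rw [(hfd x).fderiv, (hfd y).fderiv, ← Finset.sum_sub_distrib]
  have hterm : ∀ i : Fin d,
      ‖deriv (f i) (x i) • (EuclideanSpace.proj i : EuclideanSpace ℝ (Fin d) →L[ℝ] ℝ)
        - deriv (f i) (y i) • (EuclideanSpace.proj i : EuclideanSpace ℝ (Fin d) →L[ℝ] ℝ)‖
        ≤ C * ‖x - y‖ ^ ((1 : ℝ) / 3) := by
    intro i
    rw [← sub_smul, norm_smul, Real.norm_eq_abs]
    have h1 := hH i (x i) (y i)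
    have h2 : |x i - y i| ≤ ‖x - y‖ := by
      have := PiLp.norm_apply_le (x - y) i
      simpa [Real.norm_eq_abs] using this
    have h3 : |x i - y i| ^ ((1 : ℝ) / 3) ≤ ‖x - y‖ ^ ((1 : ℝ) / 3) :=
      Real.rpow_le_rpow (abs_nonneg _) h2 (by norm_num)
    have h4 : 0 ≤ ‖x - y‖ ^ ((1 : ℝ) / 3) := Real.rpow_nonneg (norm_nonneg _) _
    calc |deriv (f i) (x i) - deriv (f i) (y i)|
          * ‖(EuclideanSpace.proj i : EuclideanSpace ℝ (Fin d) →L[ℝ] ℝ)‖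
        ≤ (C * |x i - y i| ^ ((1 : ℝ) / 3)) * 1 :=
          mul_le_mul h1 (proj_norm_le i) (norm_nonneg _)
            (mul_nonneg hC (Real.rpow_nonneg (abs_nonneg _) _))
      _ ≤ C * ‖x - y‖ ^ ((1 : ℝ) / 3) := by
          rw [mul_one]
          exact mul_le_mul_of_nonneg_left h3 hC
  calc ‖∑ i, (deriv (f i) (x i) • (EuclideanSpace.proj i : EuclideanSpace ℝ (Fin d) →L[ℝ] ℝ)
        - deriv (f i) (y i) • (EuclideanSpace.proj i : EuclideanSpace ℝ (Fin d) →L[ℝ] ℝ))‖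
      ≤ ∑ i : Fin d, ‖deriv (f i) (x i) • (EuclideanSpace.proj i : EuclideanSpace ℝ (Fin d) →L[ℝ] ℝ)
        - deriv (f i) (y i) • (EuclideanSpace.proj i : EuclideanSpace ℝ (Fin d) →L[ℝ] ℝ)‖ :=
        norm_sum_le _ _
    _ ≤ ∑ _i : Fin d, C * ‖x - y‖ ^ ((1 : ℝ) / 3) := Finset.sum_le_sum (fun i _ => hterm i)
    _ = (d * C) * ‖x - y‖ ^ ((1 : ℝ) / 3) := by
        rw [Finset.sum_const, Finset.card_univ, Fintype.card_fin, nsmul_eq_mul]
        ring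

end Vale.Agent.Lib.P080
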