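import Vale.Agent.Lib.P080.OneDim

namespace Vale.Agent.Lib.P080

open Filter Topology

/-- Jet conditions on an open interval `J`: the viscosity form of `-K ≤ f'^2 f'' ≤ K` on `J`. -/
structure HypOn (J : Set ℝ) (f : ℝ → ℝ) (K : ℝ) : Prop where
  cont : ContinuousOn f J
  sup : ∀ t ∈ J, ∀ p a : ℝ,
    (∀ᶠ s in 𝓝 t, f s ≤ f t + p * (s - t) + a * (s - t) ^ 2) → -K ≤ a * p ^ 2
  sub : ∀ t ∈ J, ∀ p a : ℝ,
    (∀ᶠ s in 𝓝 t, f t + p * (s - t) + a * (s - t) ^ 2 ≤ f s) → a * p ^ 2 ≤ K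

variable {J : Set ℝ} {f : ℝ → ℝ} {K : ℝ}

lemma HypOn.neg (h : HypOn J f K) : HypOn J (fun s => - f s) K where
  cont := h.cont.neg
  sup := by
    intro t ht p a hev
    have h1 := h.sub t ht (-p) (-a) (by
      filter_upwards [hev] with s hs
      linarith)
    have : (-a) * (-p) ^ 2 = -(a * p ^ 2) := by ring
    linarith
  sub := by
    intro t ht p a hev
    have h1 := h.sup t ht (-p) (-a) (by
      filter_upwards [hev] with s hs
      linarith)
    have : (-a) * (-p) ^ 2 = -(a * p ^ 2) := by ring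
    linarith

/-- The reflected set `-J`. -/
def refl (J : Set ℝ) : Set ℝ := {s | -s ∈ J}

lemma ordConnected_refl (hJc : J.OrdConnected) : (refl J).OrdConnected :=
  ⟨fun x hx y hy z hz => hJc.out hy hx ⟨by linarith [hz.2], by linarith [hz.1]⟩⟩

lemma HypOn.reflect (h : HypOn J f K) : HypOn (refl J) (fun s => f (-s)) K where
  cont := h.cont.comp continuous_neg.continuousOn (fun s hs => hs)
  sup := by
    intro t ht p a hev
    have hten : Tendsto (fun r : ℝ => -r) (𝓝 (-t)) (𝓝 t) := by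
      have := (continuous_neg (G := ℝ)).tendsto (-t)
      simpa using this
    have h1 := h.sup (-t) ht (-p) a (by
      have := hten.eventually hev
      filter_upwards [this] with r hr
      simp only [neg_neg] at hr
      have e1 : -p * (r - -t) = p * (-r - t) := by ring
      have e2 : (r - -t) ^ 2 = (-r - t) ^ 2 := by ring
      rw [e1, e2]
      exact hr)
    have : a * (-p) ^ 2 = a * p ^ 2 := by ring
    linarith
  sub := by
    intro t ht p a hev
    have hten : Tendsto (fun r : ℝ => -r) (𝓝 (-t)) (𝓝 t) := by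
      have := (continuous_neg (G := ℝ)).tendsto (-t)
      simpa using this
    have h1 := h.sub (-t) ht (-p) a (by
      have := hten.eventually hev
      filter_upwards [this] with r hr
      simp only [neg_neg] at hr
      have e1 : -p * (r - -t) = p * (-r - t) := by ring
      have e2 : (r - -t) ^ 2 = (-r - t) ^ 2 := by ring
      rw [e1, e2]
      exact hr)
    have : a * (-p) ^ 2 = a * p ^ 2 := by ring
    linarith

/-- Parabola comparison from above on a steep interval inside `J`. -/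
lemma HypOn.upper (h : HypOn J f K) (hJc : J.OrdConnected) {α β A δ : ℝ} (hα : α ∈ J)
    (hβ : β ∈ J) (hαβ : α < β) (hA : 0 < A)
    (hδ : 0 < δ) (hK : K < A * δ ^ 2) (hm : δ + A * (β - α) ≤ |slope f α β|) :
    ∀ s ∈ Set.Icc α β, f s ≤ f α + slope f α β * (s - α) + A * ((s - α) * (β - s)) := by
  have hsub : Set.Icc α β ⊆ J := hJc.out hα hβ
  set m := slope f α β with hmdef
  have hmL : m * (β - α) = f β - f α := by
    rw [hmdef, slope_def_field]
    field_simp [sub_ne_zero.mpr hαβ.ne']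
  set g : ℝ → ℝ := fun s => f s - (f α + m * (s - α) + A * ((s - α) * (β - s))) with hg
  have hgc : ContinuousOn g (Set.Icc α β) := by
    rw [hg]
    exact (h.cont.mono hsub).sub (by fun_prop)
  obtain ⟨t, ht, htmax⟩ := isCompact_Icc.exists_isMaxOn (Set.nonempty_Icc.mpr hαβ.le) hgc
  intro s hs
  by_contra hcon
  push Not at hcon
  have hgs : 0 < g s := by simp only [hg]; linarith
  have hgt : 0 < g t := lt_of_lt_of_le hgs (htmax hs)
  have hgα : g α = 0 := by simp only [hg]; ring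
  have hgβ : g β = 0 := by simp only [hg]; nlinarith
  have htα : t ≠ α := by rintro rfl; linarith
  have htβ : t ≠ β := by rintro rfl; linarith
  have htI : t ∈ Set.Ioo α β := ⟨lt_of_le_of_ne ht.1 (Ne.symm htα), lt_of_le_of_ne ht.2 htβ⟩
  have hnhds : Set.Icc α β ∈ 𝓝 t := Icc_mem_nhds htI.1 htI.2
  set p := m + A * (α + β - 2 * t) with hp
  have hjet : ∀ᶠ s in 𝓝 t, f s ≤ f t + p * (s - t) + (-A) * (s - t) ^ 2 := by
    filter_upwards [hnhds] with s hs
    have h1 : g s ≤ g t := htmax hs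
    simp only [hg] at h1
    have e : f t + p * (s - t) + (-A) * (s - t) ^ 2
        = f t + (m * (s - α) + A * ((s - α) * (β - s))) - (m * (t - α) + A * ((t - α) * (β - t))) := by
      rw [hp]; ring
    rw [e]
    linarith
  have h2 := h.sup t (hsub ht) p (-A) hjet
  have hp_abs : δ ≤ |p| := by
    have h3 : |A * (α + β - 2 * t)| ≤ A * (β - α) := by
      rw [abs_mul, abs_of_pos hA]
      apply mul_le_mul_of_nonneg_left _ hA.le
      rw [abs_le]
      constructor <;> linarith [htI.1, htI.2]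
    have h4 : |m| - |A * (α + β - 2 * t)| ≤ |p| := by
      have := abs_sub_abs_le_abs_sub m (-(A * (α + β - 2 * t)))
      rw [abs_neg] at this
      have e : m - -(A * (α + β - 2 * t)) = p := by rw [hp]; ring
      rw [e] at this
      exact this
    linarith
  have hp2 : δ ^ 2 ≤ p ^ 2 := by
    have := abs_nonneg p
    nlinarith [sq_abs p]
  nlinarith

lemma HypOn.two_sided (h : HypOn J f K) (hJc : J.OrdConnected) {α β A δ : ℝ} (hα : α ∈ J)
    (hβ : β ∈ J) (hαβ : α < β) (hA : 0 < A)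
    (hδ : 0 < δ) (hK : K < A * δ ^ 2) (hm : δ + A * (β - α) ≤ |slope f α β|) :
    ∀ s ∈ Set.Icc α β,
      |f s - (f α + slope f α β * (s - α))| ≤ A * ((s - α) * (β - s)) := by
  intro s hs
  have h1 := h.upper hJc hα hβ hαβ hA hδ hK hm s hs
  have hneg : slope (fun s => - f s) α β = - slope f α β := by
    rw [slope_def_field, slope_def_field]; ring
  have h2 := h.neg.upper hJc hα hβ hαβ hA hδ hK (by rw [hneg, abs_neg]; exact hm) s hs
  rw [hneg] at h2
  rw [abs_le]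
  constructor <;> linarith

lemma HypOn.chord (h : HypOn J f K) (hJc : J.OrdConnected) (hK0 : 0 ≤ K) {α β ε : ℝ}
    (hα : α ∈ J) (hβ : β ∈ J) (hαβ : α < β)
    (hε : 0 < ε) (hL : (K + 1) * (β - α) ≤ ε ^ 3) (hm : 2 * ε ≤ |slope f α β|) :
    ∀ s ∈ Set.Icc α β,
      |f s - (f α + slope f α β * (s - α))| ≤ ε * (s - α) ∧
      |f s - (f β + slope f α β * (s - β))| ≤ ε * (β - s) := by
  have hA : 0 < (K + 1) / ε ^ 2 := by positivity
  have hAL : (K + 1) / ε ^ 2 * (β - α) ≤ ε := by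
    rw [div_mul_eq_mul_div, div_le_iff₀ (by positivity)]
    calc (K + 1) * (β - α) ≤ ε ^ 3 := hL
      _ = ε * ε ^ 2 := by ring
  have hK' : K < (K + 1) / ε ^ 2 * ε ^ 2 := by
    rw [div_mul_cancel₀ _ (by positivity)]
    linarith
  have hm' : ε + (K + 1) / ε ^ 2 * (β - α) ≤ |slope f α β| := by linarith
  intro s hs
  have h1 := h.two_sided hJc hα hβ hαβ hA hε hK' hm' s hs
  have hmL : slope f α β * (β - α) = f β - f α := by
    rw [slope_def_field]
    field_simp [sub_ne_zero.mpr hαβ.ne']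
  have hs1 : 0 ≤ s - α := by linarith [hs.1]
  have hs2 : 0 ≤ β - s := by linarith [hs.2]
  constructor
  · calc |f s - (f α + slope f α β * (s - α))| ≤ (K + 1) / ε ^ 2 * ((s - α) * (β - s)) := h1
      _ ≤ (K + 1) / ε ^ 2 * ((s - α) * (β - α)) := by
          apply mul_le_mul_of_nonneg_left _ hA.le
          apply mul_le_mul_of_nonneg_left _ hs1
          linarith
      _ = ((K + 1) / ε ^ 2 * (β - α)) * (s - α) := by ring
      _ ≤ ε * (s - α) := mul_le_mul_of_nonneg_right hAL hs1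
  · have e : f s - (f β + slope f α β * (s - β)) = f s - (f α + slope f α β * (s - α)) := by
      linarith
    rw [e]
    calc |f s - (f α + slope f α β * (s - α))| ≤ (K + 1) / ε ^ 2 * ((s - α) * (β - s)) := h1
      _ ≤ (K + 1) / ε ^ 2 * ((β - α) * (β - s)) := by
          apply mul_le_mul_of_nonneg_left _ hA.le
          apply mul_le_mul_of_nonneg_right _ hs2
          linarith
      _ = ((K + 1) / ε ^ 2 * (β - α)) * (β - s) := by ring
      _ ≤ ε * (β - s) := mul_le_mul_of_nonneg_right hAL hs2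

lemma HypOn.right_osc (h : HypOn J f K) (hJc : J.OrdConnected) (hK0 : 0 ≤ K) {t₀ ε k k' : ℝ}
    (ht₀ : t₀ ∈ J) (htk : t₀ + k ∈ J)
    (hε : 0 < ε) (hk' : 0 < k') (hkk : k' ≤ k) (hk : (K + 1) * k ≤ ε ^ 3) :
    |slope f t₀ (t₀ + k') - slope f t₀ (t₀ + k)| ≤ 5 * ε := by
  have hin : ∀ x : ℝ, 0 ≤ x → x ≤ k → t₀ + x ∈ J := fun x h0 hx =>
    hJc.out ht₀ htk ⟨by linarith, by linarith⟩
  have key : ∀ k₁ k₂ : ℝ, 0 < k₂ → k₂ ≤ k₁ → k₁ ≤ k → 2 * ε ≤ |slope f t₀ (t₀ + k₁)| →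
      |slope f t₀ (t₀ + k₂) - slope f t₀ (t₀ + k₁)| ≤ ε := by
    intro k₁ k₂ hk₂ h21 h1k hm
    have hk₁ : 0 < k₁ := lt_of_lt_of_le hk₂ h21
    have hL : (K + 1) * (t₀ + k₁ - t₀) ≤ ε ^ 3 := by
      have : (K + 1) * k₁ ≤ (K + 1) * k := mul_le_mul_of_nonneg_left h1k (by linarith)
      simpa using this.trans hk
    have h1 := (h.chord hJc hK0 ht₀ (hin k₁ hk₁.le h1k) (by linarith : t₀ < t₀ + k₁) hε hL hm
      (t₀ + k₂) ⟨by linarith, by linarith⟩).1
    have e : slope f t₀ (t₀ + k₂) - slope f t₀ (t₀ + k₁)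
        = (f (t₀ + k₂) - (f t₀ + slope f t₀ (t₀ + k₁) * (t₀ + k₂ - t₀))) / k₂ := by
      rw [slope_add f t₀ k₂, add_sub_cancel_left]
      field_simp
      ring
    rw [e, abs_div, abs_of_pos hk₂, div_le_iff₀ hk₂]
    simpa using h1
  by_cases hm : 2 * ε ≤ |slope f t₀ (t₀ + k)|
  · have := key k k' hk' hkk le_rfl hm
    linarith
  · push Not at hm
    have h3 : |slope f t₀ (t₀ + k')| ≤ 3 * ε := by
      by_contra hcon
      push Not at hcon
      have hD : ContinuousOn (fun x => |slope f t₀ (t₀ + x)|) (Set.Icc k' k) := by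
        simp only [slope_def_field]
        apply ContinuousOn.abs
        apply ContinuousOn.div
        · apply ContinuousOn.sub _ continuousOn_const
          exact h.cont.comp (continuous_const.add continuous_id).continuousOn
            (fun x hx => hin x (by linarith [hx.1]) hx.2)
        · exact ((continuous_const.add continuous_id).sub continuous_const).continuousOn
        · intro x hx
          have : 0 < x := lt_of_lt_of_le hk' hx.1
          simp only [add_sub_cancel_left]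
          exact this.ne'
      have hivt := intermediate_value_Icc' hkk hD
      have hmem : 2 * ε ∈ Set.Icc (|slope f t₀ (t₀ + k)|) (|slope f t₀ (t₀ + k')|) :=
        ⟨hm.le, by linarith⟩
      obtain ⟨x, hx, hxe⟩ := hivt hmem
      have hxe' : |slope f t₀ (t₀ + x)| = 2 * ε := hxe
      have := key x k' hk' hx.1 hx.2 (by rw [hxe'])
      have h5 : |slope f t₀ (t₀ + k')| ≤ |slope f t₀ (t₀ + k') - slope f t₀ (t₀ + x)|
          + |slope f t₀ (t₀ + x)| := by
        have := abs_add_le (slope f t₀ (t₀ + k') - slope f t₀ (t₀ + x)) (slope f t₀ (t₀ + x))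
        simpa using this
      linarith
    have h5 := abs_sub (slope f t₀ (t₀ + k')) (slope f t₀ (t₀ + k))
    linarith

lemma HypOn.left_osc (h : HypOn J f K) (hJc : J.OrdConnected) (hK0 : 0 ≤ K) {t₀ ε k k' : ℝ}
    (ht₀ : t₀ ∈ J) (htk : t₀ - k ∈ J)
    (hε : 0 < ε) (hk' : 0 < k') (hkk : k' ≤ k) (hk : (K + 1) * k ≤ ε ^ 3) :
    |slope f t₀ (t₀ - k') - slope f t₀ (t₀ - k)| ≤ 5 * ε := by
  have ht₀' : -t₀ ∈ refl J := by
    show -(-t₀) ∈ J
    rw [neg_neg]; exact ht₀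
  have htk' : -t₀ + k ∈ refl J := by
    show -(-t₀ + k) ∈ J
    have e : -(-t₀ + k) = t₀ - k := by ring
    rw [e]; exact htk
  have h1 := h.reflect.right_osc (ordConnected_refl hJc) hK0 (t₀ := -t₀) ht₀' htk' hε hk' hkk hk
  have e : ∀ x : ℝ, slope (fun s => f (-s)) (-t₀) (-t₀ + x) = - slope f t₀ (t₀ - x) := by
    intro x
    rw [slope_add, slope_sub]
    have e1 : -(-t₀ + x) = t₀ - x := by ring
    have e2 : -(-t₀) = t₀ := by ring
    simp only [e1, e2]
    ring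
  rw [e k', e k] at h1
  have e3 : -slope f t₀ (t₀ - k') - -slope f t₀ (t₀ - k)
      = -(slope f t₀ (t₀ - k') - slope f t₀ (t₀ - k)) := by ring
  rw [e3, abs_neg] at h1
  exact h1

lemma HypOn.corner_le (h : HypOn J f K) (hJc : J.OrdConnected) (hK0 : 0 ≤ K) {t₀ ε k : ℝ}
    (hl : t₀ - k ∈ J) (hr : t₀ + k ∈ J)
    (hε : 0 < ε) (hk : 0 < k) (hkε : 2 * (K + 1) * k ≤ ε ^ 3) :
    slope f t₀ (t₀ + k) - slope f t₀ (t₀ - k) ≤ 22 * ε := by
  have hsub : Set.Icc (t₀ - k) (t₀ + k) ⊆ J := hJc.out hl hr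
  by_contra hcon
  push Not at hcon
  set x := slope f t₀ (t₀ + k) with hx
  set y := slope f t₀ (t₀ - k) with hy
  have hfx : f (t₀ + k) = f t₀ + x * k := by
    have := slope_mul_right f (show t₀ ≠ t₀ + k by linarith)
    rw [add_sub_cancel_left] at this
    linarith
  have hfy : f (t₀ - k) = f t₀ - y * k := by
    have := slope_mul_right f (show t₀ ≠ t₀ - k by linarith)
    have e : t₀ - k - t₀ = -k := by ring
    rw [e] at this
    linarith
  set m := slope f (t₀ - k) (t₀ + k) with hm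
  have hmxy : m = (x + y) / 2 := by
    have := slope_mul_right f (show t₀ - k ≠ t₀ + k by linarith)
    have e : t₀ + k - (t₀ - k) = 2 * k := by ring
    rw [e, hfx, hfy] at this
    have h2 : m * k = (x + y) / 2 * k := by linarith
    exact mul_right_cancel₀ hk.ne' h2
  set c := (x - y) / 2 with hc
  have hc11 : 11 * ε < c := by rw [hc]; linarith
  have hcpos : 0 < c := by linarith
  by_cases hsteep : 2 * ε ≤ |m|
  · have hL : (K + 1) * (t₀ + k - (t₀ - k)) ≤ ε ^ 3 := by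
      have : (K + 1) * (t₀ + k - (t₀ - k)) = 2 * (K + 1) * k := by ring
      rw [this]; exact hkε
    have h1 := (h.chord hJc hK0 hl hr (by linarith : t₀ - k < t₀ + k) hε hL hsteep t₀
      ⟨by linarith, by linarith⟩).1
    rw [← hm, hfy, hmxy] at h1
    have e : f t₀ - (f t₀ - y * k + (x + y) / 2 * (t₀ - (t₀ - k))) = - (c * k) := by
      rw [hc]; ring
    rw [e, abs_neg, abs_of_pos (mul_pos hcpos hk)] at h1
    have e2 : ε * (t₀ - (t₀ - k)) = ε * k := by ring
    rw [e2] at h1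
    have : c ≤ ε := le_of_mul_le_mul_right h1 hk
    linarith
  · push Not at hsteep
    have hm1 := (abs_lt.mp hsteep).1
    set p := m + c / 2 with hp
    set a := c / (16 * k) with ha
    have hapos : 0 < a := by rw [ha]; positivity
    have hak : a * k = c / 16 := by rw [ha]; field_simp
    set g : ℝ → ℝ := fun s => f s - (f t₀ + p * (s - t₀) + a * (s - t₀) ^ 2) with hg
    have hgc : ContinuousOn g (Set.Icc (t₀ - k) (t₀ + k)) := by
      rw [hg]
      exact (h.cont.mono hsub).sub (by fun_prop)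
    obtain ⟨t, ht, htmin⟩ := isCompact_Icc.exists_isMinOn
      (Set.nonempty_Icc.mpr (by linarith : t₀ - k ≤ t₀ + k)) hgc
    have hg0 : g t₀ = 0 := by simp only [hg]; ring
    have hxm : x - m = c := by rw [hmxy, hc]; ring
    have hmy : m - y = c := by rw [hmxy, hc]; ring
    have hgr : 0 < g (t₀ + k) := by
      simp only [hg]
      rw [hfx]
      have e : f t₀ + x * k - (f t₀ + p * (t₀ + k - t₀) + a * (t₀ + k - t₀) ^ 2)
          = (x - p) * k - (a * k) * k := by ring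
      rw [e, hak]
      have : x - p = c / 2 := by rw [hp]; linarith
      rw [this]
      have : c / 2 * k - c / 16 * k = (7 / 16 * c) * k := by ring
      rw [this]; positivity
    have hgl : 0 < g (t₀ - k) := by
      simp only [hg]
      rw [hfy]
      have e : f t₀ - y * k - (f t₀ + p * (t₀ - k - t₀) + a * (t₀ - k - t₀) ^ 2)
          = (p - y) * k - (a * k) * k := by ring
      rw [e, hak]
      have : p - y = 3 * c / 2 := by rw [hp]; linarith
      rw [this]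
      have : 3 * c / 2 * k - c / 16 * k = (23 / 16 * c) * k := by ring
      rw [this]; positivity
    have hgt : g t ≤ 0 := by
      have h9 : g t ≤ g t₀ :=
        htmin (show t₀ ∈ Set.Icc (t₀ - k) (t₀ + k) from ⟨by linarith, by linarith⟩)
      rw [hg0] at h9
      exact h9
    have ht1 : t ≠ t₀ - k := by rintro rfl; linarith
    have ht2 : t ≠ t₀ + k := by rintro rfl; linarith
    have htI : t ∈ Set.Ioo (t₀ - k) (t₀ + k) :=
      ⟨lt_of_le_of_ne ht.1 (Ne.symm ht1), lt_of_le_of_ne ht.2 ht2⟩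
    have hnhds : Set.Icc (t₀ - k) (t₀ + k) ∈ 𝓝 t := Icc_mem_nhds htI.1 htI.2
    set P := p + 2 * a * (t - t₀) with hP
    have hjet : ∀ᶠ s in 𝓝 t, f t + P * (s - t) + a * (s - t) ^ 2 ≤ f s := by
      filter_upwards [hnhds] with s hs
      have h1 : g t ≤ g s := htmin hs
      simp only [hg] at h1
      have e : f t + P * (s - t) + a * (s - t) ^ 2
          = f t + (p * (s - t₀) + a * (s - t₀) ^ 2) - (p * (t - t₀) + a * (t - t₀) ^ 2) := by
        rw [hP]; ring
      rw [e]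
      linarith
    have h2 := h.sub t (hsub ht) P a hjet
    have hpc : c / 4 < p := by rw [hp]; linarith
    have hPc : c / 8 < P := by
      have h3 : -(c / 8) < 2 * a * (t - t₀) := by
        have : -k < t - t₀ := by linarith [htI.1]
        have : 2 * a * (-k) < 2 * a * (t - t₀) :=
          mul_lt_mul_of_pos_left this (by positivity)
        have e : 2 * a * (-k) = -(2 * (a * k)) := by ring
        rw [e, hak] at this
        linarith
      rw [hP]; linarith
    have hP2 : (c / 8) ^ 2 < P ^ 2 := by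
      have : 0 < c / 8 := by positivity
      nlinarith
    have h4 : a * (c / 8) ^ 2 < K := lt_of_lt_of_le (mul_lt_mul_of_pos_left hP2 hapos) h2
    have h5 : c ^ 3 < 1024 * K * k := by
      have e : a * (c / 8) ^ 2 = c ^ 3 / (1024 * k) := by
        rw [ha]; field_simp; ring
      rw [e, div_lt_iff₀ (by positivity)] at h4
      linarith
    have h6 : 1024 * K * k ≤ 512 * ε ^ 3 := by nlinarith
    have h7 : (11 * ε) ^ 3 < c ^ 3 := by
      have : 0 < 11 * ε := by positivity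
      exact pow_lt_pow_left₀ hc11 this.le (by norm_num)
    have h8 : (11 * ε) ^ 3 = 1331 * ε ^ 3 := by ring
    have : 0 < ε ^ 3 := by positivity
    linarith

lemma HypOn.corner (h : HypOn J f K) (hJc : J.OrdConnected) (hK0 : 0 ≤ K) {t₀ ε k : ℝ}
    (hl : t₀ - k ∈ J) (hr : t₀ + k ∈ J)
    (hε : 0 < ε) (hk : 0 < k) (hkε : 2 * (K + 1) * k ≤ ε ^ 3) :
    |slope f t₀ (t₀ + k) - slope f t₀ (t₀ - k)| ≤ 22 * ε := by
  have h1 := h.corner_le hJc hK0 (t₀ := t₀) hl hr hε hk hkε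
  have h2 := h.neg.corner_le hJc hK0 (t₀ := t₀) hl hr hε hk hkε
  have hneg : ∀ b : ℝ, slope (fun s => - f s) t₀ b = - slope f t₀ b := by
    intro b
    rw [slope_def_field, slope_def_field]; ring
  rw [hneg, hneg] at h2
  rw [abs_le]
  constructor <;> linarith

/-- All difference quotients at `t₀ ∈ J` below scale `ε^3 / (2 (K+1))` agree up to `27ε`, provided
the mirror image of the second point also lies in `J`. -/
lemma HypOn.osc_all (h : HypOn J f K) (hJc : J.OrdConnected) (hK0 : 0 ≤ K) {t₀ ε y₁ y₂ : ℝ}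
    (ht₀ : t₀ ∈ J) (h1J : y₁ ∈ J) (h2J : y₂ ∈ J) (h2m : 2 * t₀ - y₂ ∈ J)
    (hε : 0 < ε) (h1 : y₁ ≠ t₀) (h2 : y₂ ≠ t₀) (hy1 : 2 * (K + 1) * |y₁ - t₀| ≤ ε ^ 3)
    (hy2 : 2 * (K + 1) * |y₂ - t₀| ≤ ε ^ 3) :
    |slope f t₀ y₁ - slope f t₀ y₂| ≤ 27 * ε := by
  have hhalf : ∀ k : ℝ, 0 < k → 2 * (K + 1) * k ≤ ε ^ 3 → (K + 1) * k ≤ ε ^ 3 := by
    intro k hk hkε
    have : 0 ≤ (K + 1) * k := by positivity
    linarith
  have hR : ∀ k₁ k₂ : ℝ, 0 < k₁ → 0 < k₂ → t₀ + k₁ ∈ J → t₀ + k₂ ∈ J →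
      2 * (K + 1) * k₁ ≤ ε ^ 3 → 2 * (K + 1) * k₂ ≤ ε ^ 3 →
      |slope f t₀ (t₀ + k₁) - slope f t₀ (t₀ + k₂)| ≤ 5 * ε := by
    intro k₁ k₂ hk₁ hk₂ hJ1 hJ2 he1 he2
    rcases le_total k₁ k₂ with hle | hle
    · exact h.right_osc hJc hK0 ht₀ hJ2 hε hk₁ hle (hhalf k₂ hk₂ he2)
    · rw [abs_sub_comm]
      exact h.right_osc hJc hK0 ht₀ hJ1 hε hk₂ hle (hhalf k₁ hk₁ he1)
  have hL : ∀ k₁ k₂ : ℝ, 0 < k₁ → 0 < k₂ → t₀ - k₁ ∈ J → t₀ - k₂ ∈ J →
      2 * (K + 1) * k₁ ≤ ε ^ 3 → 2 * (K + 1) * k₂ ≤ ε ^ 3 →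
      |slope f t₀ (t₀ - k₁) - slope f t₀ (t₀ - k₂)| ≤ 5 * ε := by
    intro k₁ k₂ hk₁ hk₂ hJ1 hJ2 he1 he2
    rcases le_total k₁ k₂ with hle | hle
    · exact h.left_osc hJc hK0 ht₀ hJ2 hε hk₁ hle (hhalf k₂ hk₂ he2)
    · rw [abs_sub_comm]
      exact h.left_osc hJc hK0 ht₀ hJ1 hε hk₂ hle (hhalf k₁ hk₁ he1)
  have hsplit : ∀ y : ℝ, y ≠ t₀ → 2 * (K + 1) * |y - t₀| ≤ ε ^ 3 →
      (∃ k : ℝ, 0 < k ∧ 2 * (K + 1) * k ≤ ε ^ 3 ∧ y = t₀ + k) ∨
      (∃ k : ℝ, 0 < k ∧ 2 * (K + 1) * k ≤ ε ^ 3 ∧ y = t₀ - k) := by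
    intro y hy hyε
    rcases lt_or_gt_of_ne hy with hlt | hgt
    · right
      refine ⟨t₀ - y, by linarith, ?_, by ring⟩
      rw [abs_of_neg (by linarith)] at hyε
      have e : -(y - t₀) = t₀ - y := by ring
      rw [e] at hyε
      exact hyε
    · left
      refine ⟨y - t₀, by linarith, ?_, by ring⟩
      rw [abs_of_pos (by linarith)] at hyε
      exact hyε
  rcases hsplit y₁ h1 hy1 with ⟨k₁, hk₁, he1, rfl⟩ | ⟨k₁, hk₁, he1, rfl⟩ <;>
  rcases hsplit y₂ h2 hy2 with ⟨k₂, hk₂, he2, rfl⟩ | ⟨k₂, hk₂, he2, rfl⟩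
  · have := hR k₁ k₂ hk₁ hk₂ h1J h2J he1 he2
    linarith
  · have hmir : t₀ + k₂ ∈ J := by
      have e : 2 * t₀ - (t₀ - k₂) = t₀ + k₂ := by ring
      rw [e] at h2m; exact h2m
    have a1 := hR k₁ k₂ hk₁ hk₂ h1J hmir he1 he2
    have a2 := h.corner hJc hK0 (t₀ := t₀) h2J hmir hε hk₂ he2
    have a3 := abs_sub_le (slope f t₀ (t₀ + k₁)) (slope f t₀ (t₀ + k₂)) (slope f t₀ (t₀ - k₂))
    linarith
  · have hmir : t₀ - k₂ ∈ J := by
      have e : 2 * t₀ - (t₀ + k₂) = t₀ - k₂ := by ring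
      rw [e] at h2m; exact h2m
    have a1 := hL k₁ k₂ hk₁ hk₂ h1J hmir he1 he2
    have a2 := h.corner hJc hK0 (t₀ := t₀) hmir h2J hε hk₂ he2
    rw [abs_sub_comm] at a2
    have a3 := abs_sub_le (slope f t₀ (t₀ - k₁)) (slope f t₀ (t₀ - k₂)) (slope f t₀ (t₀ + k₂))
    linarith
  · have := hL k₁ k₂ hk₁ hk₂ h1J h2J he1 he2
    linarith

/-- `f` is differentiable at every point of `J`, with a uniform rate for the difference
quotients. -/
lemma HypOn.exists_deriv (h : HypOn J f K) (hJo : IsOpen J) (hJc : J.OrdConnected) (hK0 : 0 ≤ K)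
    {t₀ : ℝ} (ht₀ : t₀ ∈ J) :
    ∃ d : ℝ, HasDerivAt f d t₀ ∧ ∀ ε : ℝ, 0 < ε → ∀ y ∈ J, y ≠ t₀ →
      2 * (K + 1) * |y - t₀| ≤ ε ^ 3 → |slope f t₀ y - d| ≤ 27 * ε := by
  have hmem : ∀ ε : ℝ, 0 < ε →
      {y : ℝ | y ≠ t₀ ∧ 2 * (K + 1) * |y - t₀| ≤ ε ^ 3 ∧ y ∈ J ∧ 2 * t₀ - y ∈ J} ∈ 𝓝[≠] t₀ := by
    intro ε hε
    have hb : Metric.ball t₀ (ε ^ 3 / (2 * (K + 1))) ∈ 𝓝 t₀ :=
      Metric.ball_mem_nhds _ (by positivity)
    have hJn : J ∈ 𝓝 t₀ := hJo.mem_nhds ht₀
    have hJm : {y : ℝ | 2 * t₀ - y ∈ J} ∈ 𝓝 t₀ := by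
      have hc : Continuous (fun y : ℝ => 2 * t₀ - y) := by fun_prop
      have hJ' : J ∈ 𝓝 (2 * t₀ - t₀) := by
        have e : 2 * t₀ - t₀ = t₀ := by ring
        rw [e]; exact hJn
      exact hc.continuousAt.preimage_mem_nhds hJ'
    filter_upwards [mem_nhdsWithin_of_mem_nhds hb, mem_nhdsWithin_of_mem_nhds hJn,
      mem_nhdsWithin_of_mem_nhds hJm, self_mem_nhdsWithin] with y hy hyJ hym hne
    refine ⟨hne, ?_, hyJ, hym⟩
    rw [Metric.mem_ball, Real.dist_eq, lt_div_iff₀ (by positivity)] at hy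
    linarith
  have hc : Cauchy (map (slope f t₀) (𝓝[≠] t₀)) := by
    rw [Metric.cauchy_iff]
    refine ⟨inferInstance, ?_⟩
    intro e he
    refine ⟨slope f t₀ '' {y : ℝ | y ≠ t₀ ∧ 2 * (K + 1) * |y - t₀| ≤ (e / 28) ^ 3 ∧ y ∈ J ∧
      2 * t₀ - y ∈ J}, image_mem_map (hmem (e / 28) (by positivity)), ?_⟩
    rintro _ ⟨y₁, ⟨h1, h1', h1J, -⟩, rfl⟩ _ ⟨y₂, ⟨h2, h2', h2J, h2m⟩, rfl⟩
    rw [Real.dist_eq]
    have := h.osc_all hJc hK0 ht₀ h1J h2J h2m (by positivity : 0 < e / 28) h1 h2 h1' h2'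
    linarith
  obtain ⟨d, hd⟩ := cauchy_map_iff_exists_tendsto.mp hc
  refine ⟨d, hasDerivAt_iff_tendsto_slope.mpr hd, ?_⟩
  intro ε hε y hyJ hy hyε
  have hev : ∀ᶠ y' in 𝓝[≠] t₀, |slope f t₀ y - slope f t₀ y'| ≤ 27 * ε := by
    filter_upwards [hmem ε hε] with y' hy'
    exact h.osc_all hJc hK0 ht₀ hyJ hy'.2.2.1 hy'.2.2.2 hε hy hy'.1 hyε hy'.2.1
  have hten : Tendsto (fun y' => |slope f t₀ y - slope f t₀ y'|) (𝓝[≠] t₀)
      (𝓝 |slope f t₀ y - d|) := (tendsto_const_nhds.sub hd).abs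
  exact le_of_tendsto hten hev

/-- `f` is differentiable on `J` and its derivative has a uniform modulus of continuity on `J`. -/
lemma HypOn.deriv_modulus (h : HypOn J f K) (hJo : IsOpen J) (hJc : J.OrdConnected)
    (hK0 : 0 ≤ K) :
    (∀ t ∈ J, DifferentiableAt ℝ f t) ∧ ∀ ε : ℝ, 0 < ε → ∀ s ∈ J, ∀ t ∈ J,
      2 * (K + 1) * |s - t| ≤ ε ^ 3 → |deriv f s - deriv f t| ≤ 54 * ε := by
  refine ⟨fun t ht => ?_, ?_⟩
  · obtain ⟨d, hd, -⟩ := h.exists_deriv hJo hJc hK0 ht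
    exact hd.differentiableAt
  · intro ε hε s hs t ht hst
    obtain ⟨ds, hds1, hds2⟩ := h.exists_deriv hJo hJc hK0 hs
    obtain ⟨dt, hdt1, hdt2⟩ := h.exists_deriv hJo hJc hK0 ht
    rw [hds1.deriv, hdt1.deriv]
    by_cases hne : s = t
    · subst hne
      have : ds = dt := hds1.unique hdt1
      rw [this]
      simp only [sub_self, abs_zero]
      positivity
    · have a1 := hds2 ε hε t ht (Ne.symm hne) (by rw [abs_sub_comm]; exact hst)
      have a2 := hdt2 ε hε s hs hne hst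
      rw [slope_comm f s t] at a1
      have a3 := abs_sub_le ds (slope f t s) dt
      rw [abs_sub_comm ds (slope f t s)] at a3
      linarith

/-- Main one-dimensional statement on an open interval: `f` is `C^1` on `J` and `f'` is Hölder
continuous with exponent `1/3` on `J`. -/
theorem HypOn.regular (h : HypOn J f K) (hJo : IsOpen J) (hJc : J.OrdConnected) (hK0 : 0 ≤ K) :
    ContDiffOn ℝ 1 f J ∧ (∀ t ∈ J, DifferentiableAt ℝ f t) ∧ ∀ s ∈ J, ∀ t ∈ J,
      |deriv f s - deriv f t| ≤ 54 * (2 * (K + 1)) ^ ((1 : ℝ) / 3) * |s - t| ^ ((1 : ℝ) / 3) := by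
  obtain ⟨hdiff, hmod⟩ := h.deriv_modulus hJo hJc hK0
  refine ⟨?_, hdiff, ?_⟩
  · rw [show (1 : WithTop ℕ∞) = 0 + 1 from (zero_add 1).symm,
      contDiffOn_succ_iff_deriv_of_isOpen hJo]
    refine ⟨fun t ht => (hdiff t ht).differentiableWithinAt, fun h0 => absurd h0 (by simp),
      contDiffOn_zero.mpr ?_⟩
    rw [Metric.continuousOn_iff]
    intro b hb e he
    refine ⟨(e / 55) ^ 3 / (2 * (K + 1)), by positivity, ?_⟩
    intro a ha hab
    rw [Real.dist_eq] at hab ⊢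
    rw [lt_div_iff₀ (by positivity)] at hab
    have := hmod (e / 55) (by positivity) a ha b hb (by linarith)
    linarith
  · intro s hs t ht
    by_cases hne : s = t
    · subst hne
      simp only [sub_self, abs_zero]
      positivity
    · have hpos : 0 < 2 * (K + 1) * |s - t| := by
        have : 0 < |s - t| := abs_pos.mpr (sub_ne_zero.mpr hne)
        positivity
      set ε := (2 * (K + 1) * |s - t|) ^ ((1 : ℝ) / 3) with hε
      have hεpos : 0 < ε := Real.rpow_pos_of_pos hpos _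
      have hε3 : ε ^ 3 = 2 * (K + 1) * |s - t| := by
        rw [hε, ← Real.rpow_natCast, ← Real.rpow_mul hpos.le]
        norm_num
      have h1 := hmod ε hεpos s hs t ht (by rw [hε3])
      have h2 : ε = (2 * (K + 1)) ^ ((1 : ℝ) / 3) * |s - t| ^ ((1 : ℝ) / 3) := by
        rw [hε, Real.mul_rpow (by positivity) (abs_nonneg _)]
      rw [h2] at h1
      linarith

end Vale.Agent.Lib.P080
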