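import Vale.Agent.Lib.P080.Defs
import Vale.Agent.Lib.P080.OneDim

namespace Vale.Agent.Lib.P080

open Filter Topology

/-- Every continuous function on the line is touched from above by a parabola somewhere. -/
lemma exists_superjet (g : ℝ → ℝ) (hg : Continuous g) :
    ∃ t p a : ℝ, ∀ᶠ s in 𝓝 t, g s ≤ g t + p * (s - t) + a * (s - t) ^ 2 := by
  set M := |g 1 - g 0| + |g (-1) - g 0| + 1 with hM
  set G : ℝ → ℝ := fun s => g s - M * s ^ 2 with hG
  have hGc : Continuous G := by
    rw [hG]
    exact hg.sub (by fun_prop)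
  obtain ⟨t, ht, htmax⟩ := isCompact_Icc.exists_isMaxOn
    (Set.nonempty_Icc.mpr (by norm_num : (-1 : ℝ) ≤ 1)) hGc.continuousOn
  have h0 : G 0 ≤ G t := htmax (show (0 : ℝ) ∈ Set.Icc (-1) 1 from ⟨by norm_num, by norm_num⟩)
  have hG0 : G 0 = g 0 := by simp only [hG]; ring
  have hG1 : G 1 < g 0 := by
    simp only [hG]
    have := le_abs_self (g 1 - g 0)
    have := abs_nonneg (g (-1) - g 0)
    rw [hM]; linarith
  have hGm1 : G (-1) < g 0 := by
    simp only [hG]
    have := le_abs_self (g (-1) - g 0)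
    have := abs_nonneg (g 1 - g 0)
    rw [hM]; linarith
  have ht1 : t ≠ 1 := by rintro rfl; linarith
  have htm1 : t ≠ -1 := by rintro rfl; linarith
  have htI : t ∈ Set.Ioo (-1 : ℝ) 1 :=
    ⟨lt_of_le_of_ne ht.1 (Ne.symm htm1), lt_of_le_of_ne ht.2 ht1⟩
  have hnhds : Set.Icc (-1 : ℝ) 1 ∈ 𝓝 t := Icc_mem_nhds htI.1 htI.2
  refine ⟨t, 2 * M * t, M, ?_⟩
  filter_upwards [hnhds] with s hs
  have h1 : G s ≤ G t := htmax hs
  simp only [hG] at h1
  have e : g t + 2 * M * t * (s - t) + M * (s - t) ^ 2 = g t + M * s ^ 2 - M * t ^ 2 := by ring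
  rw [e]
  linarith

/-- Every continuous function on the line is touched from below by a parabola somewhere. -/
lemma exists_subjet (g : ℝ → ℝ) (hg : Continuous g) :
    ∃ t p a : ℝ, ∀ᶠ s in 𝓝 t, g t + p * (s - t) + a * (s - t) ^ 2 ≤ g s := by
  obtain ⟨t, p, a, h⟩ := exists_superjet (fun s => - g s) hg.neg
  refine ⟨t, -p, -a, ?_⟩
  filter_upwards [h] with s hs
  linarith

variable {d : ℕ}

/-- The separable quadratic test function. -/
noncomputable def testFn (z : EuclideanSpace ℝ (Fin d)) (p a : Fin d → ℝ) :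
    EuclideanSpace ℝ (Fin d) → ℝ :=
  fun x => ∑ j, (p j * (x j - z j) + a j * (x j - z j) ^ 2)

lemma testFn_contDiff (z : EuclideanSpace ℝ (Fin d)) (p a : Fin d → ℝ) :
    ContDiff ℝ 2 (testFn z p a) := by
  unfold testFn
  fun_prop

lemma proj_single (i j : Fin d) :
    (EuclideanSpace.proj j : EuclideanSpace ℝ (Fin d) →L[ℝ] ℝ) (EuclideanSpace.single i (1 : ℝ))
      = if j = i then 1 else 0 := by
  simp [EuclideanSpace.proj]

lemma testFn_hasFDerivAt (z : EuclideanSpace ℝ (Fin d)) (p a : Fin d → ℝ)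
    (y : EuclideanSpace ℝ (Fin d)) :
    HasFDerivAt (testFn z p a)
      (∑ j, (p j + 2 * a j * (y j - z j)) •
        (EuclideanSpace.proj j : EuclideanSpace ℝ (Fin d) →L[ℝ] ℝ)) y := by
  unfold testFn
  apply HasFDerivAt.fun_sum
  intro j _
  have h1 : HasDerivAt (fun s : ℝ => p j * (s - z j) + a j * (s - z j) ^ 2)
      (p j + 2 * a j * (y j - z j)) (y j) := by
    have hid : HasDerivAt (fun s : ℝ => s - z j) 1 (y j) := (hasDerivAt_id (y j)).sub_const (z j)
    have h := (hid.const_mul (p j)).add ((hid.pow 2).const_mul (a j))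
    have h' : HasDerivAt (fun s : ℝ => p j * (s - z j) + a j * (s - z j) ^ 2)
        (p j * 1 + a j * ((2 : ℕ) * (y j - z j) ^ (2 - 1) * 1)) (y j) := h
    refine h'.congr_deriv ?_
    norm_num
    ring
  have h2 : HasFDerivAt (fun x : EuclideanSpace ℝ (Fin d) => x j)
      (EuclideanSpace.proj j : EuclideanSpace ℝ (Fin d) →L[ℝ] ℝ) y :=
    (EuclideanSpace.proj j : EuclideanSpace ℝ (Fin d) →L[ℝ] ℝ).hasFDerivAt
  exact h1.comp_hasFDerivAt y h2

lemma pderiv_testFn (z : EuclideanSpace ℝ (Fin d)) (p a : Fin d → ℝ) (i : Fin d)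
    (y : EuclideanSpace ℝ (Fin d)) :
    pderiv i (testFn z p a) y = p i + 2 * a i * (y i - z i) := by
  unfold pderiv
  rw [(testFn_hasFDerivAt z p a y).fderiv]
  simp [EuclideanSpace.proj]

lemma pderiv_pderiv_testFn (z : EuclideanSpace ℝ (Fin d)) (p a : Fin d → ℝ) (i j : Fin d) :
    pderiv j (pderiv i (testFn z p a)) z = if i = j then 2 * a i else 0 := by
  have hfun : pderiv i (testFn z p a) = fun y => p i + 2 * a i * (y i - z i) := by
    funext y
    exact pderiv_testFn z p a i y
  rw [hfun]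
  unfold pderiv
  have h1 : HasDerivAt (fun s : ℝ => p i + 2 * a i * (s - z i)) (2 * a i) (z i) := by
    have hid : HasDerivAt (fun s : ℝ => s - z i) 1 (z i) := (hasDerivAt_id (z i)).sub_const (z i)
    have h := (hid.const_mul (2 * a i)).const_add (p i)
    exact h.congr_deriv (by ring)
  have h2 : HasFDerivAt (fun x : EuclideanSpace ℝ (Fin d) => x i)
      (EuclideanSpace.proj i : EuclideanSpace ℝ (Fin d) →L[ℝ] ℝ) z :=
    (EuclideanSpace.proj i : EuclideanSpace ℝ (Fin d) →L[ℝ] ℝ).hasFDerivAt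
  have h3 := h1.comp_hasFDerivAt z h2
  have h4 : ((fun s : ℝ => p i + 2 * a i * (s - z i)) ∘ fun x : EuclideanSpace ℝ (Fin d) => x i)
      = fun y : EuclideanSpace ℝ (Fin d) => p i + 2 * a i * (y i - z i) := rfl
  rw [h4] at h3
  rw [h3.fderiv]
  simp [EuclideanSpace.proj]

lemma infLap_testFn (z : EuclideanSpace ℝ (Fin d)) (p a : Fin d → ℝ) :
    infLap (testFn z p a) z = ∑ i, 2 * a i * p i ^ 2 := by
  unfold infLap
  apply Finset.sum_congr rfl
  intro i _
  simp only [pderiv_testFn, pderiv_pderiv_testFn, sub_self, mul_zero, add_zero, mul_ite]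
  rw [Finset.sum_ite_eq]
  simp
  ring

lemma isLocalMax_of_jets (f : Fin d → ℝ → ℝ) (z : EuclideanSpace ℝ (Fin d)) (p a : Fin d → ℝ)
    (hj : ∀ j, ∀ᶠ s in 𝓝 (z j), f j s ≤ f j (z j) + p j * (s - z j) + a j * (s - z j) ^ 2) :
    IsLocalMax (fun x : EuclideanSpace ℝ (Fin d) => (∑ i, f i (x i)) - testFn z p a x) z := by
  have hten : ∀ j, Tendsto (fun x : EuclideanSpace ℝ (Fin d) => x j) (𝓝 z) (𝓝 (z j)) := fun j =>
    (EuclideanSpace.proj j : EuclideanSpace ℝ (Fin d) →L[ℝ] ℝ).continuous.tendsto z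
  have hev : ∀ᶠ x in 𝓝 z, ∀ j,
      f j (x j) ≤ f j (z j) + p j * (x j - z j) + a j * (x j - z j) ^ 2 :=
    eventually_all.mpr (fun j => (hten j).eventually (hj j))
  have hz : testFn z p a z = 0 := by simp [testFn]
  show ∀ᶠ x in 𝓝 z, (∑ i, f i (x i)) - testFn z p a x ≤ (∑ i, f i (z i)) - testFn z p a z
  filter_upwards [hev] with x hx
  rw [hz, sub_zero]
  unfold testFn
  rw [← Finset.sum_sub_distrib]
  apply Finset.sum_le_sum
  intro j _
  linarith [hx j]

lemma isLocalMin_of_jets (f : Fin d → ℝ → ℝ) (z : EuclideanSpace ℝ (Fin d)) (p a : Fin d → ℝ)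
    (hj : ∀ j, ∀ᶠ s in 𝓝 (z j), f j (z j) + p j * (s - z j) + a j * (s - z j) ^ 2 ≤ f j s) :
    IsLocalMin (fun x : EuclideanSpace ℝ (Fin d) => (∑ i, f i (x i)) - testFn z p a x) z := by
  have hten : ∀ j, Tendsto (fun x : EuclideanSpace ℝ (Fin d) => x j) (𝓝 z) (𝓝 (z j)) := fun j =>
    (EuclideanSpace.proj j : EuclideanSpace ℝ (Fin d) →L[ℝ] ℝ).continuous.tendsto z
  have hev : ∀ᶠ x in 𝓝 z, ∀ j,
      f j (z j) + p j * (x j - z j) + a j * (x j - z j) ^ 2 ≤ f j (x j) :=
    eventually_all.mpr (fun j => (hten j).eventually (hj j))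
  have hz : testFn z p a z = 0 := by simp [testFn]
  show ∀ᶠ x in 𝓝 z, (∑ i, f i (z i)) - testFn z p a z ≤ (∑ i, f i (x i)) - testFn z p a x
  filter_upwards [hev] with x hx
  rw [hz, sub_zero]
  unfold testFn
  rw [← Finset.sum_sub_distrib]
  apply Finset.sum_le_sum
  intro j _
  linarith [hx j]

/-- If `u(x) = ∑ f_i (x_i)` is infinity-harmonic on `ℝ^d`, every `f_i` satisfies the
one-dimensional jet conditions with a common constant. -/
theorem hyp_of_infHarmonic (f : Fin d → ℝ → ℝ) (hf : ∀ i, Continuous (f i))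
    (hu : InfHarmonic (fun x : EuclideanSpace ℝ (Fin d) => ∑ i, f i (x i))) :
    ∃ K : ℝ, 0 ≤ K ∧ ∀ i, Hyp (f i) K := by
  classical
  choose ts ps as hs using fun j => exists_superjet (f j) (hf j)
  choose tb pb ab hb using fun j => exists_subjet (f j) (hf j)
  refine ⟨∑ j, (|as j| * ps j ^ 2 + |ab j| * pb j ^ 2),
    Finset.sum_nonneg (fun j _ => by positivity), ?_⟩
  intro i
  refine ⟨hf i, ?_, ?_⟩
  · intro t p a hjet
    set z : EuclideanSpace ℝ (Fin d) := WithLp.toLp 2 (fun j => if j = i then t else ts j) with hz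
    set P : Fin d → ℝ := fun j => if j = i then p else ps j with hP
    set A : Fin d → ℝ := fun j => if j = i then a else as j with hA
    have hzj : ∀ j, z j = if j = i then t else ts j := fun j => by simp [hz]
    have hjets : ∀ j, ∀ᶠ s in 𝓝 (z j),
        f j s ≤ f j (z j) + P j * (s - z j) + A j * (s - z j) ^ 2 := by
      intro j
      by_cases hji : j = i
      · simp only [hzj, hP, hA, if_pos hji]
        rw [hji]
        exact hjet
      · simp only [hzj, hP, hA, if_neg hji]
        exact hs j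
    have hmax := isLocalMax_of_jets f z P A hjets
    have h0 := (hu.2 (testFn z P A) (testFn_contDiff z P A) z).1 hmax
    rw [infLap_testFn] at h0
    have hle : ∑ j, 2 * A j * P j ^ 2 ≤ ∑ j, ((if j = i then 2 * a * p ^ 2 else 0)
        + 2 * (|as j| * ps j ^ 2 + |ab j| * pb j ^ 2)) := by
      apply Finset.sum_le_sum
      intro j _
      have h2 : 0 ≤ |ab j| * pb j ^ 2 := by positivity
      by_cases hji : j = i
      · simp only [hP, hA, if_pos hji]
        have : 0 ≤ |as j| * ps j ^ 2 := by positivity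
        linarith
      · simp only [hP, hA, if_neg hji]
        have h1 : as j * ps j ^ 2 ≤ |as j| * ps j ^ 2 :=
          mul_le_mul_of_nonneg_right (le_abs_self _) (sq_nonneg _)
        linarith
    rw [Finset.sum_add_distrib, Finset.sum_ite_eq', ← Finset.mul_sum] at hle
    simp only [Finset.mem_univ, if_true] at hle
    linarith
  · intro t p a hjet
    set z : EuclideanSpace ℝ (Fin d) := WithLp.toLp 2 (fun j => if j = i then t else tb j) with hz
    set P : Fin d → ℝ := fun j => if j = i then p else pb j with hP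
    set A : Fin d → ℝ := fun j => if j = i then a else ab j with hA
    have hzj : ∀ j, z j = if j = i then t else tb j := fun j => by simp [hz]
    have hjets : ∀ j, ∀ᶠ s in 𝓝 (z j),
        f j (z j) + P j * (s - z j) + A j * (s - z j) ^ 2 ≤ f j s := by
      intro j
      by_cases hji : j = i
      · simp only [hzj, hP, hA, if_pos hji]
        rw [hji]
        exact hjet
      · simp only [hzj, hP, hA, if_neg hji]
        exact hb j
    have hmin := isLocalMin_of_jets f z P A hjets
    have h0 := (hu.2 (testFn z P A) (testFn_contDiff z P A) z).2 hmin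
    rw [infLap_testFn] at h0
    have hle : ∑ j, ((if j = i then 2 * a * p ^ 2 else 0)
        - 2 * (|as j| * ps j ^ 2 + |ab j| * pb j ^ 2)) ≤ ∑ j, 2 * A j * P j ^ 2 := by
      apply Finset.sum_le_sum
      intro j _
      have h2 : 0 ≤ |as j| * ps j ^ 2 := by positivity
      by_cases hji : j = i
      · simp only [hP, hA, if_pos hji]
        have : 0 ≤ |ab j| * pb j ^ 2 := by positivity
        linarith
      · simp only [hP, hA, if_neg hji]
        have h1 : -(|ab j| * pb j ^ 2) ≤ ab j * pb j ^ 2 := by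
          have := mul_le_mul_of_nonneg_right (neg_abs_le (ab j)) (sq_nonneg (pb j))
          linarith
        linarith
    rw [Finset.sum_sub_distrib, Finset.sum_ite_eq', ← Finset.mul_sum] at hle
    simp only [Finset.mem_univ, if_true] at hle
    linarith

end Vale.Agent.Lib.P080
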