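import Vale.Agent.Lib.P080.DefsOn
import Vale.Agent.Lib.P080.OneDimOn
import Vale.Agent.Lib.P080.Gradient

namespace Vale.Agent.Lib.P080

open Filter Topology

/-- A continuous function on a nonempty open set of the line is touched from above by a parabola
at some point of the set. -/
lemma exists_superjet_on (J : Set ℝ) (hJo : IsOpen J) (hJne : J.Nonempty) (g : ℝ → ℝ)
    (hg : ContinuousOn g J) :
    ∃ t ∈ J, ∃ p a : ℝ, ∀ᶠ s in 𝓝 t, g s ≤ g t + p * (s - t) + a * (s - t) ^ 2 := by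
  obtain ⟨c, hc⟩ := hJne
  obtain ⟨ρ, hρ, hball⟩ := Metric.isOpen_iff.mp hJo c hc
  set r := ρ / 2 with hr
  have hrpos : 0 < r := by rw [hr]; positivity
  have hsub : Set.Icc (c - r) (c + r) ⊆ J := by
    intro s hs
    apply hball
    rw [Metric.mem_ball, Real.dist_eq, abs_lt]
    constructor <;> linarith [hs.1, hs.2]
  set M := (|g (c + r) - g c| + |g (c - r) - g c| + 1) / r ^ 2 with hM
  have hMr : M * r ^ 2 = |g (c + r) - g c| + |g (c - r) - g c| + 1 := by
    rw [hM, div_mul_cancel₀ _ (by positivity)]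
  set G : ℝ → ℝ := fun s => g s - M * (s - c) ^ 2 with hG
  have hGc : ContinuousOn G (Set.Icc (c - r) (c + r)) := by
    rw [hG]
    exact (hg.mono hsub).sub (by fun_prop)
  obtain ⟨t, ht, htmax⟩ := isCompact_Icc.exists_isMaxOn
    (Set.nonempty_Icc.mpr (by linarith : c - r ≤ c + r)) hGc
  have h0 : G c ≤ G t :=
    htmax (show c ∈ Set.Icc (c - r) (c + r) from ⟨by linarith, by linarith⟩)
  have hG0 : G c = g c := by simp only [hG]; ring
  have hG1 : G (c + r) < g c := by
    simp only [hG]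
    have e : (c + r - c) ^ 2 = r ^ 2 := by ring
    rw [e, hMr]
    have := le_abs_self (g (c + r) - g c)
    have := abs_nonneg (g (c - r) - g c)
    linarith
  have hGm1 : G (c - r) < g c := by
    simp only [hG]
    have e : (c - r - c) ^ 2 = r ^ 2 := by ring
    rw [e, hMr]
    have := le_abs_self (g (c - r) - g c)
    have := abs_nonneg (g (c + r) - g c)
    linarith
  have ht1 : t ≠ c + r := by rintro rfl; linarith
  have htm1 : t ≠ c - r := by rintro rfl; linarith
  have htI : t ∈ Set.Ioo (c - r) (c + r) :=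
    ⟨lt_of_le_of_ne ht.1 (Ne.symm htm1), lt_of_le_of_ne ht.2 ht1⟩
  have hnhds : Set.Icc (c - r) (c + r) ∈ 𝓝 t := Icc_mem_nhds htI.1 htI.2
  refine ⟨t, hsub ht, 2 * M * (t - c), M, ?_⟩
  filter_upwards [hnhds] with s hs
  have h1 : G s ≤ G t := htmax hs
  simp only [hG] at h1
  have e : g t + 2 * M * (t - c) * (s - t) + M * (s - t) ^ 2
      = g t + M * (s - c) ^ 2 - M * (t - c) ^ 2 := by ring
  rw [e]
  linarith

lemma exists_subjet_on (J : Set ℝ) (hJo : IsOpen J) (hJne : J.Nonempty) (g : ℝ → ℝ)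
    (hg : ContinuousOn g J) :
    ∃ t ∈ J, ∃ p a : ℝ, ∀ᶠ s in 𝓝 t, g t + p * (s - t) + a * (s - t) ^ 2 ≤ g s := by
  obtain ⟨t, ht, p, a, h⟩ := exists_superjet_on J hJo hJne (fun s => - g s) hg.neg
  refine ⟨t, ht, -p, -a, ?_⟩
  filter_upwards [h] with s hs
  linarith

variable {d : ℕ}

lemma eventually_mem_box (J : Fin d → Set ℝ) (hJo : ∀ i, IsOpen (J i))
    (z : EuclideanSpace ℝ (Fin d)) (hz : ∀ i, z i ∈ J i) :
    ∀ᶠ x in 𝓝 z, ∀ j, x j ∈ J j := by
  have hten : ∀ j, Tendsto (fun x : EuclideanSpace ℝ (Fin d) => x j) (𝓝 z) (𝓝 (z j)) := fun j =>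
    (EuclideanSpace.proj j : EuclideanSpace ℝ (Fin d) →L[ℝ] ℝ).continuous.tendsto z
  exact eventually_all.mpr (fun j => (hten j).eventually ((hJo j).mem_nhds (hz j)))

lemma isLocalMax_of_jets_on (J : Fin d → Set ℝ) (hJo : ∀ i, IsOpen (J i)) (f : Fin d → ℝ → ℝ)
    (u : EuclideanSpace ℝ (Fin d) → ℝ)
    (huf : ∀ x : EuclideanSpace ℝ (Fin d), (∀ i, x i ∈ J i) → u x = ∑ i, f i (x i))
    (z : EuclideanSpace ℝ (Fin d)) (hz : ∀ i, z i ∈ J i) (p a : Fin d → ℝ)
    (hj : ∀ j, ∀ᶠ s in 𝓝 (z j), f j s ≤ f j (z j) + p j * (s - z j) + a j * (s - z j) ^ 2) :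
    IsLocalMax (fun x : EuclideanSpace ℝ (Fin d) => u x - testFn z p a x) z := by
  have hten : ∀ j, Tendsto (fun x : EuclideanSpace ℝ (Fin d) => x j) (𝓝 z) (𝓝 (z j)) := fun j =>
    (EuclideanSpace.proj j : EuclideanSpace ℝ (Fin d) →L[ℝ] ℝ).continuous.tendsto z
  have hev : ∀ᶠ x in 𝓝 z, ∀ j,
      f j (x j) ≤ f j (z j) + p j * (x j - z j) + a j * (x j - z j) ^ 2 :=
    eventually_all.mpr (fun j => (hten j).eventually (hj j))
  have hzero : testFn z p a z = 0 := by simp [testFn]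
  show ∀ᶠ x in 𝓝 z, u x - testFn z p a x ≤ u z - testFn z p a z
  filter_upwards [hev, eventually_mem_box J hJo z hz] with x hx hxJ
  rw [hzero, sub_zero, huf x hxJ, huf z hz]
  unfold testFn
  rw [← Finset.sum_sub_distrib]
  apply Finset.sum_le_sum
  intro j _
  linarith [hx j]

lemma isLocalMin_of_jets_on (J : Fin d → Set ℝ) (hJo : ∀ i, IsOpen (J i)) (f : Fin d → ℝ → ℝ)
    (u : EuclideanSpace ℝ (Fin d) → ℝ)
    (huf : ∀ x : EuclideanSpace ℝ (Fin d), (∀ i, x i ∈ J i) → u x = ∑ i, f i (x i))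
    (z : EuclideanSpace ℝ (Fin d)) (hz : ∀ i, z i ∈ J i) (p a : Fin d → ℝ)
    (hj : ∀ j, ∀ᶠ s in 𝓝 (z j), f j (z j) + p j * (s - z j) + a j * (s - z j) ^ 2 ≤ f j s) :
    IsLocalMin (fun x : EuclideanSpace ℝ (Fin d) => u x - testFn z p a x) z := by
  have hten : ∀ j, Tendsto (fun x : EuclideanSpace ℝ (Fin d) => x j) (𝓝 z) (𝓝 (z j)) := fun j =>
    (EuclideanSpace.proj j : EuclideanSpace ℝ (Fin d) →L[ℝ] ℝ).continuous.tendsto z
  have hev : ∀ᶠ x in 𝓝 z, ∀ j,
      f j (z j) + p j * (x j - z j) + a j * (x j - z j) ^ 2 ≤ f j (x j) :=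
    eventually_all.mpr (fun j => (hten j).eventually (hj j))
  have hzero : testFn z p a z = 0 := by simp [testFn]
  show ∀ᶠ x in 𝓝 z, u z - testFn z p a z ≤ u x - testFn z p a x
  filter_upwards [hev, eventually_mem_box J hJo z hz] with x hx hxJ
  rw [hzero, sub_zero, huf x hxJ, huf z hz]
  unfold testFn
  rw [← Finset.sum_sub_distrib]
  apply Finset.sum_le_sum
  intro j _
  linarith [hx j]

/-- If `u` is infinity-harmonic on a set containing the open box `∏ J_i` and `u(x) = ∑ f_i (x_i)`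
on the box, every `f_i` satisfies the one-dimensional jet conditions on `J_i` with a common
constant. -/
theorem hyp_of_infHarmonicOn (J : Fin d → Set ℝ) (hJo : ∀ i, IsOpen (J i))
    (hJne : ∀ i, (J i).Nonempty) (f : Fin d → ℝ → ℝ) (hf : ∀ i, ContinuousOn (f i) (J i))
    (Ω : Set (EuclideanSpace ℝ (Fin d)))
    (hΩ : {x : EuclideanSpace ℝ (Fin d) | ∀ i, x i ∈ J i} ⊆ Ω)
    (u : EuclideanSpace ℝ (Fin d) → ℝ) (hu : InfHarmonicOn Ω u)
    (huf : ∀ x : EuclideanSpace ℝ (Fin d), (∀ i, x i ∈ J i) → u x = ∑ i, f i (x i)) :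
    ∃ K : ℝ, 0 ≤ K ∧ ∀ i, HypOn (J i) (f i) K := by
  classical
  choose ts hts ps as hs using fun j => exists_superjet_on (J j) (hJo j) (hJne j) (f j) (hf j)
  choose tb htb pb ab hb using fun j => exists_subjet_on (J j) (hJo j) (hJne j) (f j) (hf j)
  refine ⟨∑ j, (|as j| * ps j ^ 2 + |ab j| * pb j ^ 2),
    Finset.sum_nonneg (fun j _ => by positivity), ?_⟩
  intro i
  refine ⟨hf i, ?_, ?_⟩
  · intro t ht p a hjet
    set z : EuclideanSpace ℝ (Fin d) := WithLp.toLp 2 (fun j => if j = i then t else ts j) with hz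
    set P : Fin d → ℝ := fun j => if j = i then p else ps j with hP
    set A : Fin d → ℝ := fun j => if j = i then a else as j with hA
    have hzj : ∀ j, z j = if j = i then t else ts j := fun j => by simp [hz]
    have hzJ : ∀ j, z j ∈ J j := by
      intro j
      rw [hzj]
      by_cases hji : j = i
      · rw [if_pos hji, hji]; exact ht
      · rw [if_neg hji]; exact hts j
    have hjets : ∀ j, ∀ᶠ s in 𝓝 (z j),
        f j s ≤ f j (z j) + P j * (s - z j) + A j * (s - z j) ^ 2 := by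
      intro j
      by_cases hji : j = i
      · simp only [hzj, hP, hA, if_pos hji]
        rw [hji]
        exact hjet
      · simp only [hzj, hP, hA, if_neg hji]
        exact hs j
    have hmax := isLocalMax_of_jets_on J hJo f u huf z hzJ P A hjets
    have h0 := (hu.2 (testFn z P A) (testFn_contDiff z P A) z (hΩ hzJ)).1 hmax
    rw [infLap_testFn] at h0
    have hle : ∑ j, 2 * A j * P j ^ 2 ≤ ∑ j, ((if j = i then 2 * a * p ^ 2 else 0)
        + 2 * (|as j| * ps j ^ 2 + |ab j| * pb j ^ 2)) := by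
      apply Finset.sum_le_sum
      intro j _
      have h2 : 0 ≤ |ab j| * pb j ^ 2 := by positivity
      by_cases hji : j = i
      · simp only [hP, hA, if_pos hji]
        have : 0 ≤ |as j| * ps j ^ 2 := by positivity
        linarith
      · simp only [hP, hA, if_neg hji]
        have h1 : as j * ps j ^ 2 ≤ |as j| * ps j ^ 2 :=
          mul_le_mul_of_nonneg_right (le_abs_self _) (sq_nonneg _)
        linarith
    rw [Finset.sum_add_distrib, Finset.sum_ite_eq', ← Finset.mul_sum] at hle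
    simp only [Finset.mem_univ, if_true] at hle
    linarith
  · intro t ht p a hjet
    set z : EuclideanSpace ℝ (Fin d) := WithLp.toLp 2 (fun j => if j = i then t else tb j) with hz
    set P : Fin d → ℝ := fun j => if j = i then p else pb j with hP
    set A : Fin d → ℝ := fun j => if j = i then a else ab j with hA
    have hzj : ∀ j, z j = if j = i then t else tb j := fun j => by simp [hz]
    have hzJ : ∀ j, z j ∈ J j := by
      intro j
      rw [hzj]
      by_cases hji : j = i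
      · rw [if_pos hji, hji]; exact ht
      · rw [if_neg hji]; exact htb j
    have hjets : ∀ j, ∀ᶠ s in 𝓝 (z j),
        f j (z j) + P j * (s - z j) + A j * (s - z j) ^ 2 ≤ f j s := by
      intro j
      by_cases hji : j = i
      · simp only [hzj, hP, hA, if_pos hji]
        rw [hji]
        exact hjet
      · simp only [hzj, hP, hA, if_neg hji]
        exact hb j
    have hmin := isLocalMin_of_jets_on J hJo f u huf z hzJ P A hjets
    have h0 := (hu.2 (testFn z P A) (testFn_contDiff z P A) z (hΩ hzJ)).2 hmin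
    rw [infLap_testFn] at h0
    have hle : ∑ j, ((if j = i then 2 * a * p ^ 2 else 0)
        - 2 * (|as j| * ps j ^ 2 + |ab j| * pb j ^ 2)) ≤ ∑ j, 2 * A j * P j ^ 2 := by
      apply Finset.sum_le_sum
      intro j _
      have h2 : 0 ≤ |as j| * ps j ^ 2 := by positivity
      by_cases hji : j = i
      · simp only [hP, hA, if_pos hji]
        have : 0 ≤ |ab j| * pb j ^ 2 := by positivity
        linarith
      · simp only [hP, hA, if_neg hji]
        have h1 : -(|ab j| * pb j ^ 2) ≤ ab j * pb j ^ 2 := by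
          have := mul_le_mul_of_nonneg_right (neg_abs_le (ab j)) (sq_nonneg (pb j))
          linarith
        linarith
    rw [Finset.sum_sub_distrib, Finset.sum_ite_eq', ← Finset.mul_sum] at hle
    simp only [Finset.mem_univ, if_true] at hle
    linarith

/-- Gradient of a function that is separable and `C^1` on an open box, with its Hölder bound. -/
theorem gradient_holder_on (J : Fin d → Set ℝ) (hJo : ∀ i, IsOpen (J i)) (f : Fin d → ℝ → ℝ)
    (hd : ∀ i, ∀ t ∈ J i, DifferentiableAt ℝ (f i) t)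
    (u : EuclideanSpace ℝ (Fin d) → ℝ)
    (huf : ∀ x : EuclideanSpace ℝ (Fin d), (∀ i, x i ∈ J i) → u x = ∑ i, f i (x i))
    (C : ℝ) (hC : 0 ≤ C)
    (hH : ∀ i, ∀ s ∈ J i, ∀ t ∈ J i,
      |deriv (f i) s - deriv (f i) t| ≤ C * |s - t| ^ ((1 : ℝ) / 3)) :
    ∀ x y : EuclideanSpace ℝ (Fin d), (∀ i, x i ∈ J i) → (∀ i, y i ∈ J i) →
      ‖fderiv ℝ u x - fderiv ℝ u y‖ ≤ (d * C) * ‖x - y‖ ^ ((1 : ℝ) / 3) := by
  have hfd : ∀ x : EuclideanSpace ℝ (Fin d), (∀ i, x i ∈ J i) →
      HasFDerivAt u (∑ i, deriv (f i) (x i) •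
          (EuclideanSpace.proj i : EuclideanSpace ℝ (Fin d) →L[ℝ] ℝ)) x := by
    intro x hx
    have h0 : HasFDerivAt (fun x : EuclideanSpace ℝ (Fin d) => ∑ i, f i (x i))
        (∑ i, deriv (f i) (x i) •
          (EuclideanSpace.proj i : EuclideanSpace ℝ (Fin d) →L[ℝ] ℝ)) x := by
      apply HasFDerivAt.fun_sum
      intro i _
      have h1 : HasDerivAt (f i) (deriv (f i) (x i)) (x i) := (hd i (x i) (hx i)).hasDerivAt
      have h2 : HasFDerivAt (fun x : EuclideanSpace ℝ (Fin d) => x i)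
          (EuclideanSpace.proj i : EuclideanSpace ℝ (Fin d) →L[ℝ] ℝ) x :=
        (EuclideanSpace.proj i : EuclideanSpace ℝ (Fin d) →L[ℝ] ℝ).hasFDerivAt
      exact h1.comp_hasFDerivAt x h2
    apply h0.congr_of_eventuallyEq
    filter_upwards [eventually_mem_box J hJo x hx] with x' hx'
    exact huf x' hx'
  intro x y hx hy
  rw [(hfd x hx).fderiv, (hfd y hy).fderiv, ← Finset.sum_sub_distrib]
  have hterm : ∀ i : Fin d,
      ‖deriv (f i) (x i) • (EuclideanSpace.proj i : EuclideanSpace ℝ (Fin d) →L[ℝ] ℝ)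
        - deriv (f i) (y i) • (EuclideanSpace.proj i : EuclideanSpace ℝ (Fin d) →L[ℝ] ℝ)‖
        ≤ C * ‖x - y‖ ^ ((1 : ℝ) / 3) := by
    intro i
    rw [← sub_smul, norm_smul, Real.norm_eq_abs]
    have h1 := hH i (x i) (hx i) (y i) (hy i)
    have h2 : |x i - y i| ≤ ‖x - y‖ := by
      have := PiLp.norm_apply_le (x - y) i
      simpa [Real.norm_eq_abs] using this
    have h3 : |x i - y i| ^ ((1 : ℝ) / 3) ≤ ‖x - y‖ ^ ((1 : ℝ) / 3) :=
      Real.rpow_le_rpow (abs_nonneg _) h2 (by norm_num)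
    have h4 : 0 ≤ ‖x - y‖ ^ ((1 : ℝ) / 3) := Real.rpow_nonneg (norm_nonneg _) _
    calc |deriv (f i) (x i) - deriv (f i) (y i)|
          * ‖(EuclideanSpace.proj i : EuclideanSpace ℝ (Fin d) →L[ℝ] ℝ)‖
        ≤ (C * |x i - y i| ^ ((1 : ℝ) / 3)) * 1 :=
          mul_le_mul h1 (proj_norm_le i) (norm_nonneg _)
            (mul_nonneg hC (Real.rpow_nonneg (abs_nonneg _) _))
      _ ≤ C * ‖x - y‖ ^ ((1 : ℝ) / 3) := by
          rw [mul_one]
          exact mul_le_mul_of_nonneg_left h3 hC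
  calc ‖∑ i, (deriv (f i) (x i) • (EuclideanSpace.proj i : EuclideanSpace ℝ (Fin d) →L[ℝ] ℝ)
        - deriv (f i) (y i) • (EuclideanSpace.proj i : EuclideanSpace ℝ (Fin d) →L[ℝ] ℝ))‖
      ≤ ∑ i : Fin d, ‖deriv (f i) (x i) • (EuclideanSpace.proj i : EuclideanSpace ℝ (Fin d) →L[ℝ] ℝ)
        - deriv (f i) (y i) • (EuclideanSpace.proj i : EuclideanSpace ℝ (Fin d) →L[ℝ] ℝ)‖ :=
        norm_sum_le _ _
    _ ≤ ∑ _i : Fin d, C * ‖x - y‖ ^ ((1 : ℝ) / 3) := Finset.sum_le_sum (fun i _ => hterm i)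
    _ = (d * C) * ‖x - y‖ ^ ((1 : ℝ) / 3) := by
        rw [Finset.sum_const, Finset.card_univ, Fintype.card_fin, nsmul_eq_mul]
        ring

end Vale.Agent.Lib.P080
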